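import Crest.Agent.R254.Step

/-! Row 254: choice of the parameters of the inner game. -/

set_option autoImplicit false

namespace Crest.Agent.R254

open Finset Module
open scoped RealInnerProductSpace

abbrev E (n : ℕ) := EuclideanSpace ℝ (Fin n)

lemma pigeon (d n m : ℕ) {ρ : ℝ} (hρ : 4 * (d + 1) * ρ ≤ m) (hn : (2 * m + 1) ^ d < n)
    (x : Fin n → E d) (hx : ∀ i, ‖x i‖ ≤ ρ) : ∃ i j, i < j ∧ ‖x i - x j‖ ≤ 1 / 4 := by
  have hd : (0 : ℝ) < 4 * (d + 1) := by positivity
  obtain ⟨i, -, j, -, hij, h⟩ := exists_ne_map_eq_of_card_lt_of_maps_to (s := univ)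
    (t := Fintype.piFinset fun _ : Fin d => Icc (-(m : ℤ)) m)
    (f := fun i k => ⌊4 * (d + 1) * x i k⌋) (by
      rw [Fintype.card_piFinset]
      simp only [Int.card_Icc, prod_const, card_univ, Fintype.card_fin]
      have : ((m : ℤ) + 1 - -(m : ℤ)).toNat = 2 * m + 1 := by omega
      rw [this]; exact hn) (by
      intro i _
      simp only [Fintype.coe_piFinset, coe_Icc, Set.mem_pi, Set.mem_univ, Set.mem_Icc,
        forall_const]
      intro k
      have h1 : |x i k| ≤ ρ := (PiLp.norm_apply_le (x i) k).trans (hx i)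
      have h2 := abs_le.1 h1
      constructor
      · rw [Int.le_floor]; push_cast; nlinarith
      · rw [Int.floor_le_iff]; push_cast; nlinarith)
  have key : ‖x i - x j‖ ≤ 1 / 4 := by
    have hk : ∀ k, ‖(x i - x j) k‖ ^ 2 ≤ (1 / (4 * (d + 1))) ^ 2 := by
      intro k
      have h1 := Int.abs_sub_lt_one_of_floor_eq_floor (congrFun h k)
      rw [← mul_sub, abs_mul, abs_of_pos hd] at h1
      refine pow_le_pow_left₀ (norm_nonneg _) ?_ 2
      rw [le_div_iff₀ hd, PiLp.sub_apply, Real.norm_eq_abs]; linarith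
    rw [EuclideanSpace.norm_eq, Real.sqrt_le_left (by norm_num)]
    refine (sum_le_card_nsmul _ _ _ fun k _ => hk k).trans ?_
    simp only [card_univ, Fintype.card_fin, nsmul_eq_mul]
    rw [div_pow, div_pow, ← mul_div_assoc, div_le_div_iff₀ (by positivity) (by positivity)]
    have : (0 : ℝ) ≤ d := by positivity
    nlinarith
  rcases lt_or_gt_of_ne hij with h | h
  · exact ⟨i, j, h, key⟩
  · exact ⟨j, i, h, by rwa [norm_sub_rev]⟩

lemma exists_orth (d : ℕ) (a b c : E (d + 5)) : ∃ u : Fin (d + 2) → E (d + 5), Orthonormal ℝ u ∧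
    ∀ k, ⟪a, u k⟫ = 0 ∧ ⟪b, u k⟫ = 0 ∧ ⟪c, u k⟫ = 0 := by
  classical
  set K := Submodule.span ℝ (({a, b, c} : Finset (E (d + 5))) : Set (E (d + 5)))
  have h1 : finrank ℝ K ≤ 3 := (finrank_span_finset_le_card _).trans card_le_three
  have h2 := K.finrank_add_finrank_orthogonal
  rw [finrank_euclideanSpace_fin] at h2
  have h3 : d + 2 ≤ finrank ℝ Kᗮ := by omega
  set v := stdOrthonormalBasis ℝ Kᗮ
  refine ⟨fun k => (v (Fin.castLE h3 k) : E (d + 5)),
    (v.orthonormal.comp _ (Fin.castLE_injective h3)).comp_linearIsometry Kᗮ.subtypeₗᵢ, fun k => ?_⟩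
  have hm := (v (Fin.castLE h3 k)).2
  rw [Submodule.mem_orthogonal] at hm
  exact ⟨hm _ (Submodule.subset_span (by simp)), hm _ (Submodule.subset_span (by simp)),
    hm _ (Submodule.subset_span (by simp))⟩

lemma exists_sep (d M0 : ℕ) (a b c : E (d + 5)) : ∃ y : Fin (M0 ^ (d + 1)) → E (d + 5),
    (∀ i, ⟪a, y i⟫ = 0 ∧ ⟪b, y i⟫ = 0 ∧ ⟪c, y i⟫ = 0 ∧ ‖y i‖ ≤ 2 * ((d + 1) * M0)) ∧
    ∀ i k, i ≠ k → ∀ t : ℝ, 0 ≤ t → t ≤ 1 → 1 / 2 ≤ ‖y k - t • y i‖ := by
  obtain ⟨u, hu, ho⟩ := exists_orth d a b c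
  set κ := (finFunctionFinEquiv (m := M0) (n := d + 1)).symm
  set z : Fin (M0 ^ (d + 1)) → E (d + 5) := fun i => ∑ l, ((κ i l : ℕ) : ℝ) • u l.succ with hz
  set M1 : ℝ := (d + 1) * M0 with hM1
  have hM : 0 ≤ M1 := by positivity
  have hzn : ∀ i, ‖z i‖ ≤ M1 := by
    intro i
    refine (norm_sum_le _ _).trans ((sum_le_card_nsmul _ _ (M0 : ℝ) fun l _ => ?_).trans ?_)
    · rw [norm_smul, hu.1, mul_one, Real.norm_of_nonneg (by positivity)]
      exact_mod_cast (κ i l).2.le
    · simp [hM1]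
  have hzi : ∀ i l, ⟪u l.succ, z i⟫ = ((κ i l : ℕ) : ℝ) := by
    intro i l
    have := (hu.comp _ (Fin.succ_injective (d + 1))).inner_right_fintype
      (fun l => ((κ i l : ℕ) : ℝ)) l
    simpa [hz] using this
  have hz0 : ∀ i, ⟪u 0, z i⟫ = 0 := by
    intro i
    simp only [hz, inner_sum, inner_smul_right]
    exact sum_eq_zero fun l _ => by rw [hu.2 (Fin.succ_ne_zero l).symm, mul_zero]
  have hzs : ∀ i k, i ≠ k → 1 ≤ ‖z k - z i‖ := by
    intro i k hik
    obtain ⟨l, hl⟩ := Function.ne_iff.1 (κ.injective.ne hik)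
    have h1 := abs_real_inner_le_norm (u l.succ) (z k - z i)
    rw [hu.1, one_mul, inner_sub_right, hzi, hzi] at h1
    refine le_trans ?_ h1
    have : ((κ k l : ℕ) : ℤ) - (κ i l : ℕ) ≠ 0 := by
      intro h; exact hl (Fin.ext (by omega))
    exact_mod_cast Int.one_le_abs this
  have ho' : ∀ v, (∀ k, ⟪v, u k⟫ = 0) → ∀ i, ⟪v, z i + M1 • u 0⟫ = 0 := by
    intro v hv i
    simp [hz, inner_add_right, inner_sum, inner_smul_right, hv]
  refine ⟨fun i => z i + M1 • u 0, fun i => ⟨ho' a (fun k => (ho k).1) i,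
    ho' b (fun k => (ho k).2.1) i, ho' c (fun k => (ho k).2.2) i, ?_⟩, ?_⟩
  · have := norm_add_le (z i) (M1 • u 0)
    rw [norm_smul, hu.1, Real.norm_of_nonneg hM] at this
    linarith [hzn i]
  · intro i k hik t t0 t1
    have e : z k + M1 • u 0 - t • (z i + M1 • u 0) = ((1 - t) * M1) • u 0 + (z k - t • z i) := by
      module
    have horth : ⟪((1 - t) * M1) • u 0, z k - t • z i⟫ = 0 := by
      simp [inner_smul_left, inner_sub_right, inner_smul_right, hz0]
    simp only [e]
    by_cases h : 1 / 2 ≤ (1 - t) * M1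
    · have := norm_le_norm_add_of_orth (x := z k - t • z i) (w := ((1 - t) * M1) • u 0)
        (by rw [real_inner_comm]; exact horth)
      rw [norm_smul, hu.1, Real.norm_of_nonneg (by linarith),
        add_comm (z k - t • z i)] at this
      linarith
    · refine le_trans ?_ (norm_le_norm_add_of_orth horth)
      have e2 : z k - z i = (z k - t • z i) - (1 - t) • z i := by module
      have h1 := hzs i k hik
      have h2 := norm_sub_le (z k - t • z i) ((1 - t) • z i)
      rw [← e2, norm_smul, Real.norm_of_nonneg (by linarith)] at h2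
      have := mul_le_mul_of_nonneg_left (hzn i) (show 0 ≤ 1 - t by linarith)
      linarith

open Classical in
/-- The adversary has a winning strategy with tame configurations. -/
theorem inner_game (d : ℕ) {D δ β : ℝ} (hD : 1 ≤ D) (hδ0 : 0 < δ) (hδ1 : δ ≤ 1 / 2) (hβ0 : 0 < β)
    (hβ1 : β ≤ 1) : ∃ es : E (d + 5), ‖es‖ = 1 ∧ ∃ T : Tr (E (d + 5)),
      TG (Good es δ β) T {0} ∧ ∀ φ : E (d + 5) → E d, ¬ Surv D 0 T {0} φ := by
  set c : ℕ := ⌈14 * D * (2 * (d + 1)) / δ⌉₊ with hc
  set c' : ℕ := 8 * (d + 1) * c + 1 with hc'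
  set M0 : ℕ := c' ^ d + 1 with hM0
  set n : ℕ := M0 ^ (d + 1) with hn
  have hM00 : 0 < M0 := by positivity
  have hn0 : 0 < n := by positivity
  set M : ℝ := 2 * ((d + 1) * M0) with hM
  have hMpos : 0 < M := by positivity
  set g : ℝ := 192 * D ^ 2 * M ^ 2 / δ ^ 2 with hg
  have hgpos : 0 < g := by positivity
  set l : ℝ := min (1 / 4) (1 / (32 * g)) with hl
  have hlpos : 0 < l := by positivity
  set η0 : ℝ := min (1 / (4 * M)) (δ * (l / n) / (4 * M)) with hη0
  have hη0pos : 0 < η0 := by positivity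
  obtain ⟨N, hN⟩ := exists_nat_gt (3 * D ^ 2 / (g * η0 ^ 2))
  have hNpos : (0 : ℝ) < N := lt_trans (by positivity) hN
  set η : ℝ := √(3 * D ^ 2 / (g * N)) with hη
  have hηpos : 0 < η := by positivity
  have hη2 : N * (g * η ^ 2) = 3 * D ^ 2 := by
    rw [hη, Real.sq_sqrt (by positivity)]; field_simp
  have hηle : η ≤ η0 := by
    rw [hη, Real.sqrt_le_left hη0pos.le, div_le_iff₀ (by positivity)]
    rw [div_lt_iff₀ (by positivity)] at hN
    linarith
  obtain ⟨L, hL⟩ := exists_nat_gt (max 4 (8 / (β * η)))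
  let p : Par (E (d + 5)) (E d) :=
    { e := EuclideanSpace.single 0 1, es := EuclideanSpace.single 1 1, D := D, δ := δ, β := β,
      η := η, M := M, g := g, l := l, n := n, L := L
      he := by simp
      hes := by simp [EuclideanSpace.inner_single_left]
      hD := by linarith
      hδ0 := hδ0, hδ1 := hδ1, hβ0 := hβ0, hβ1 := hβ1, hη := hηpos, hM := hMpos.le, hg := hgpos
      hl0 := hlpos, hl1 := min_le_left _ _
      hgl := by
        have : l ≤ 1 / (32 * g) := min_le_right _ _
        rw [le_div_iff₀ (by positivity)] at this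
        linarith
      hηM := by
        have : η ≤ 1 / (4 * M) := hηle.trans (min_le_left _ _)
        rw [le_div_iff₀ (by positivity)] at this
        linarith
      hn := hn0
      hΔ := by
        have : η ≤ δ * (l / n) / (4 * M) := hηle.trans (min_le_right _ _)
        rw [le_div_iff₀ (by positivity)] at this
        linarith
      hL4 := by exact_mod_cast ((le_max_left _ _).trans_lt hL).le
      hL := by
        have := (le_max_right _ _).trans_lt hL
        rw [div_lt_iff₀ (by positivity)] at this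
        linarith
      sep := fun S => exists_sep d M0 _ _ S
      pig := fun x hx => by
        refine pigeon d n (4 * (d + 1) * (c * M0)) (ρ := c * M0) (by push_cast; rfl) ?_ x ?_
        · calc (2 * (4 * (d + 1) * (c * M0)) + 1) ^ d ≤ (c' * M0) ^ d := by
                refine Nat.pow_le_pow_left ?_ d
                rw [hc']; nlinarith
            _ = c' ^ d * M0 ^ d := mul_pow _ _ _
            _ < M0 * M0 ^ d := Nat.mul_lt_mul_of_pos_right (by omega) (by positivity)
            _ = n := by rw [hn]; ring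
        · intro i
          have h1 : 14 * D * (2 * (d + 1)) / δ ≤ c := Nat.le_ceil _
          have h2 : 14 * D * M / δ ≤ c * M0 := by
            have := mul_le_mul_of_nonneg_right h1 (show (0 : ℝ) ≤ M0 by positivity)
            refine le_trans (le_of_eq ?_) this
            rw [hM]; ring
          refine le_trans (le_trans (le_abs_self _) (abs_le_of_sq_le_sq ((hx i).trans ?_)
            (by positivity))) h2
          rw [hg, div_pow]
          gcongr
          nlinarith [sq_nonneg (D * M)] }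
  refine ⟨p.es, by simp [p], p.exists_tree N ?_ ?_⟩
  · change N * (16 * η ^ 2 * M ^ 2) ≤ δ ^ 2 / 4
    have : N * η ^ 2 = 3 * D ^ 2 / g := by rw [eq_div_iff hgpos.ne']; linarith
    have e : N * (16 * η ^ 2 * M ^ 2) = 16 * M ^ 2 * (N * η ^ 2) := by ring
    rw [e, this, hg]
    apply le_of_eq; field_simp; ring
  · change 2 * D ^ 2 < N * (g * η ^ 2)
    rw [hη2]; nlinarith

end Crest.Agent.R254
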