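import Crest.Agent.R254.Outer
import Crest.Agent.R254.Params

/-! Row 254: the Euclidean non-embeddable tame block. -/

set_option autoImplicit false

namespace Crest.Agent.R254

open Finset Module
open scoped RealInnerProductSpace

variable {F F' G : Type} [NormedAddCommGroup F] [InnerProductSpace ℝ F] [DecidableEq F]
  [NormedAddCommGroup F'] [InnerProductSpace ℝ F'] [NormedAddCommGroup G] [InnerProductSpace ℝ G]
  {δ β ε D Kc Λ : ℝ}

lemma phases {N : ℕ} (hB : Build F' G δ β ε D Kc N) (hβ0 : 0 ≤ β) (hβ1 : β ≤ 1) (hε : 0 < ε)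
    (t : ℝ) {y : F'} {l : ℝ} {S : F'} {Q : F →ₗᵢ[ℝ] F'}
    (hl : 0 < l) (hΛ : 96 ≤ β * Λ) (hQ : ∀ z, ⟪S, Q z⟫ = 0) (hS : ‖S‖ ≤ δ / 2) {m : ℝ}
    (hm : ε * m ≤ δ / 2) : ∀ (P : List (Ph F)) (Y Y' : Finset F) (τ : ℝ), Ok Λ δ (β / 4) P Y Y' →
    Tame 4 δ (β / 4) (Y : Set F) → (∀ q ∈ Y, ‖q‖ ≤ 3) → dur P ≤ 1 / 4 →
    (∀ ph ∈ P, ∀ e ∈ ph.2, ‖e.2 - e.1‖ ≤ m * ph.1) →
    ∃ K, Blk δ β (t + l * τ) (t + l * (τ + dur P)) (gp ε y l S Q τ '' ↑Y)
      (gp ε y l S Q (τ + dur P) '' ↑Y') K ∧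
      (∀ p ∈ K, ‖p.2 - y - (p.1 - t) • S‖ ≤ ε * l * 6) ∧
      ∀ (f : ℝ × F' → G) (V f0 : G), Emb D K f → 0 ≤ ‖V‖ ^ 2 - Kc * ‖S‖ ^ 2 →
        2 * D ^ 2 < ‖V‖ ^ 2 - Kc * ‖S‖ ^ 2 + (N + 1) * ε ^ 2 →
        Rel Kc D P (stt ε t y l S Q f V f0 τ) (stt ε t y l S Q f V f0 (τ + dur P))
  | [], Y, Y', τ, ho, hT, hY, _, _ => by
    obtain rfl : Y = Y' := ho
    have hel : 0 < ε * l := by positivity
    simp only [dur_nil, add_zero]
    refine ⟨{t + l * τ} ×ˢ (gp ε y l S Q τ '' ↑Y), ⟨le_rfl, isCompact_singleton.prod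
      (Y.finite_toSet.image _).isCompact, ?_, by simp, by simp, ?_, fun s => ?_⟩, ?_,
      fun _ _ _ _ _ _ => rfl⟩
    · rintro p ⟨h, -⟩; exact ⟨h.ge, h.le⟩
    · rintro ⟨s, z⟩ ⟨h, hz⟩ s' s0 s1
      obtain rfl : s' = t + l * τ := le_antisymm s1 s0
      obtain rfl : s = t + l * τ := h
      exact ⟨z, ⟨rfl, hz⟩, by simp⟩
    · exact ((hT.image Q (y + (l * τ) • S) hel).mono_beta (by linarith)).mono fun z hz => hz.2
    · rintro ⟨s, z⟩ ⟨h, q, hq, rfl⟩
      obtain rfl : s = t + l * τ := h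
      have : gp ε y l S Q τ q - y - (t + l * τ - t) • S = (ε * l) • Q q := by
        simp only [gp]; module
      simp only [this]
      rw [norm_smul, Q.norm_map, Real.norm_of_nonneg hel.le]
      have := hY q hq
      nlinarith
  | ph :: P, Y, Y', τ, ho, _, _, hd, hsl => by
    obtain ⟨hph, rfl, ho⟩ := ho
    have hel : 0 < ε * l := by positivity
    have ha := hph.pos
    have hd0 := ho.dur_nonneg
    rw [dur_cons] at hd ⊢
    obtain ⟨K1, b1, l1, r1⟩ := phase t (y := y) hB hβ0 hβ1 hε hl hΛ hQ hS hm hph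
      (hsl ph List.mem_cons_self) τ
    obtain ⟨K2, b2, l2, r2⟩ := phases hB hβ0 hβ1 hε t (y := y) hl hΛ hQ hS hm P _ Y' (τ + ph.1) ho
      (by
        have := hph.tame ph.1
        simpa [pt, ha.ne'] using this)
      (by
        intro q hq
        obtain ⟨e, he, rfl⟩ := mem_image.1 hq
        exact (hph.bd e he).2) (by linarith) fun p hp => hsl p (List.mem_cons_of_mem _ hp)
    rw [add_assoc] at b2 r2
    refine ⟨K1 ∪ K2, b1.glue b2, ?_, fun f V f0 hf h0 h1 =>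
      ⟨_, r1 f V f0 (hf.mono Set.subset_union_left) h0 h1,
        r2 f V f0 (hf.mono Set.subset_union_right) h0 h1⟩⟩
    rintro p (hp | hp)
    · obtain ⟨e, he, u, u0, u1, h⟩ := l1 p hp
      have h1 : ‖pt ph.1 e u‖ ≤ 3 := by
        have e1 : pt ph.1 e u = (1 - u / ph.1) • e.1 + (u / ph.1) • e.2 := by simp only [pt]; module
        have v0 : 0 ≤ u / ph.1 := by positivity
        have v1 : u / ph.1 ≤ 1 := by rwa [div_le_one ha]
        rw [e1]
        refine (norm_add_le _ _).trans ?_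
        rw [norm_smul, norm_smul, Real.norm_of_nonneg v0, Real.norm_of_nonneg (by linarith)]
        nlinarith [(hph.bd e he).1, (hph.bd e he).2]
      have h2 : min (p.1 - (t + l * τ)) (t + l * (τ + ph.1) - p.1) ≤ l / 8 := by
        have a1 := min_le_left (p.1 - (t + l * τ)) (t + l * (τ + ph.1) - p.1)
        have a2 := min_le_right (p.1 - (t + l * τ)) (t + l * (τ + ph.1) - p.1)
        nlinarith
      have h3 := norm_add_le (p.2 - y - (p.1 - t) • S - (ε * l) • Q (pt ph.1 e u))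
        ((ε * l) • Q (pt ph.1 e u))
      rw [sub_add_cancel, norm_smul, Q.norm_map, Real.norm_of_nonneg hel.le] at h3
      have h4 := mul_le_mul_of_nonneg_left h2 (show 0 ≤ ε * 24 by positivity)
      have h5 := mul_le_mul_of_nonneg_left h1 hel.le
      linarith
    · exact l2 p hp

omit [DecidableEq F] in
lemma phOk_triv (hβ : 0 ≤ β) {a : ℝ} (ha : 0 < a) : PhOk Λ δ β ((a, {(0, 0)}) : Ph F) :=
  ⟨ha, by simp, fun u => by simpa using (tame_singleton hβ _).mono_k (by norm_num), by simp⟩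

lemma build_succ {N : ℕ} (hB : Build F' G δ β ε D Kc N) (hβ0 : 0 ≤ β) (hβ1 : β ≤ 1) (hε : 0 < ε)
    (hD : 0 < D) (hδ : 0 < δ) (hK : 2 * D ^ 2 + 16 * D ^ 2 / δ ^ 2 ≤ Kc) (hΛ : 96 ≤ β * Λ)
    (hQ : ∀ S : F', ∃ Q : F →ₗᵢ[ℝ] F', ∀ z, ⟪S, Q z⟫ = 0) {m : ℝ} (hm0 : 0 ≤ m) (hm : ε * m ≤ δ / 2)
    {P : List (Ph F)} (ho : Ok Λ δ (β / 4) P {0} {0}) (hst : Stat P {0}) (hd : dur P ≤ 1 / 4)
    (hsl : ∀ ph ∈ P, ∀ e ∈ ph.2, ‖e.2 - e.1‖ ≤ m * ph.1)
    (hP : ∀ x x' : St F G, Rel Kc D P x x' → x.2 0 - x'.2 0 ≤ 1 → ¬ ‖x.1 0‖ ≤ 1) :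
    Build F' G δ β ε D Kc (N + 1) := by
  intro t y l S hl hS
  rcases le_total (δ / 2) ‖S‖ with hS2 | hS2
  · exact seg_straight hβ0 hε.le hD hδ hK t y hl hS (Or.inr hS2)
  obtain ⟨Q, hQ⟩ := hQ S
  have hd0 := ho.dur_nonneg
  have ha : 0 < 1 / 2 - dur P := by linarith
  have hβ4 : 0 ≤ β / 4 := by linarith
  obtain ⟨K1, b1, l1, r1⟩ := phase t (y := y) hB hβ0 hβ1 hε hl hΛ hQ hS2 hm
    (phOk_triv hβ4 (show (0 : ℝ) < 1 / 2 by norm_num)) (by simpa using hm0) 0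
  obtain ⟨K2, b2, l2, r2⟩ := phases hB hβ0 hβ1 hε t (y := y) hl hΛ hQ hS2 hm P _ _ (0 + 1 / 2) ho
    (by simpa using (tame_singleton hβ4 _).mono_k (by norm_num)) (by simp) hd hsl
  obtain ⟨K3, b3, l3, r3⟩ := phase t (y := y) hB hβ0 hβ1 hε hl hΛ hQ hS2 hm
    (phOk_triv hβ4 ha) (by simpa using mul_nonneg hm0 ha.le) (0 + 1 / 2 + dur P)
  have e1 : 0 + 1 / 2 + dur P + (1 / 2 - dur P) = 1 := by ring
  simp only [image_singleton, e1] at b1 b3 l1 l3 r1 r3
  have b := (b1.glue b2).glue b3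
  have g0 : gp ε y l S Q 0 0 = y := by simp [gp]
  have g1 : gp ε y l S Q 1 0 = y + l • S := by simp [gp]
  simp only [coe_singleton, Set.image_singleton, g0, g1, mul_zero, add_zero, mul_one] at b
  refine ⟨_, b, ?_, ?_⟩
  · rintro p ((hp | hp) | hp)
    · obtain ⟨e, he, u, -, -, h⟩ := l1 p hp
      obtain rfl := mem_singleton.1 he
      simp only [pt, sub_self, smul_zero, add_zero, map_zero, sub_zero, mul_zero] at h
      refine h.trans (mul_le_mul_of_nonneg_left (min_le_min le_rfl (by linarith)) (by positivity))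
    · have := b2.rng p hp
      have h1 : l / 4 ≤ min (p.1 - t) (t + l - p.1) := le_min (by nlinarith) (by nlinarith)
      have := mul_le_mul_of_nonneg_left h1 (show 0 ≤ ε * 24 by positivity)
      linarith [l2 p hp]
    · obtain ⟨e, he, u, -, -, h⟩ := l3 p hp
      obtain rfl := mem_singleton.1 he
      simp only [pt, sub_self, smul_zero, add_zero, map_zero, sub_zero, mul_one] at h
      refine h.trans (mul_le_mul_of_nonneg_left (min_le_min (by nlinarith) le_rfl) (by positivity))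
  · intro f hf h0
    by_contra h1
    push_cast at h1
    rw [not_le] at h1
    unfold Pot at h0 h1
    set V := l⁻¹ • (f (t + l, y + l • S) - f (t, y)) with hV
    have s1 := (r1 f V (f (t, y)) (hf.mono (Set.subset_union_left.trans Set.subset_union_left))
      h0 h1).1 (0, 0) (mem_singleton_self _)
    have s2 := r2 f V (f (t, y)) (hf.mono (Set.subset_union_right.trans Set.subset_union_left)) h0 h1
    have s3 := (r3 f V (f (t, y)) (hf.mono Set.subset_union_right) h0 h1).1 (0, 0)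
      (mem_singleton_self _)
    have z0 : (stt ε t y l S Q f V (f (t, y)) 0).1 0 = 0 ∧
        (stt ε t y l S Q f V (f (t, y)) 0).2 0 = 0 := by simp [stt, g0]
    have z1 : (stt ε t y l S Q f V (f (t, y)) 1).2 0 = 0 := by
      simp [stt, g1, hV, smul_smul, hl.ne']
    have s4 := (s2.static ho hst (mem_singleton_self 0)).1
    refine hP _ _ s2 ?_ ?_
    all_goals
      simp only [z0.1, z0.2, z1, sub_self, norm_zero, sub_zero] at s1 s3
      set x1 := stt ε t y l S Q f V (f (t, y)) (0 + 1 / 2)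
      set x2 := stt ε t y l S Q f V (f (t, y)) (0 + 1 / 2 + dur P)
      have p1 : 0 ≤ ‖x1.1 0‖ ^ 2 := by positivity
      have p2 : 0 ≤ ‖(stt ε t y l S Q f V (f (t, y)) 1).1 0 - x2.1 0‖ ^ 2 / (1 / 2 - dur P) := by
        positivity
      norm_num at s1 s3 p2
    · linarith
    · exact le_trans (le_abs_self _) (abs_le_of_sq_le_sq (by linarith) zero_le_one)

lemma exists_isom (n : ℕ) (S : E (n + 1)) : ∃ Q : E n →ₗᵢ[ℝ] E (n + 1), ∀ z, ⟪S, Q z⟫ = 0 := by
  have : Fact (finrank ℝ (E (n + 1)) = n + 1) := ⟨finrank_euclideanSpace_fin⟩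
  obtain ⟨v, hv, c, rfl⟩ : ∃ v : E (n + 1), v ≠ 0 ∧ ∃ c : ℝ, S = c • v := by
    by_cases h : S = 0
    · obtain ⟨v, hv⟩ := exists_ne (0 : E (n + 1))
      exact ⟨v, hv, 0, by simp [h]⟩
    · exact ⟨S, h, 1, by simp⟩
  refine ⟨(ℝ ∙ v)ᗮ.subtypeₗᵢ.comp
    (OrthonormalBasis.fromOrthogonalSpanSingleton (𝕜 := ℝ) n hv).repr.symm.toLinearIsometry, fun z => ?_⟩
  have := Submodule.mem_orthogonal_singleton_iff_inner_right.1
    ((OrthonormalBasis.fromOrthogonalSpanSingleton (𝕜 := ℝ) n hv).repr.symm z).2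
  rw [inner_smul_left]
  exact mul_eq_zero_of_right _ this

/-- A tame block of curves in `ℝ × E (d+6)` not embedding in `E d` with constant `D`. -/
theorem exists_block (d : ℕ) {D δ β : ℝ} (hD : 1 ≤ D) (hδ0 : 0 < δ) (hδ1 : δ ≤ 1 / 2) (hβ0 : 0 < β)
    (hβ1 : β ≤ 1) (t : ℝ) {l : ℝ} (hl : 0 < l) : ∃ K : Set (ℝ × E (d + 6)),
      Blk δ β t (t + l) {0} {0} K ∧ ∀ f : ℝ × E (d + 6) → E d, ¬ Emb D K f := by
  classical
  obtain ⟨es, hes, T, hT, hw⟩ := inner_game d (β := β / 4) hD hδ0 hδ1 (by linarith) (by linarith)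
  obtain ⟨κ, hκ, hw⟩ := exists_kappa T hw
  set Kc := 2 * D ^ 2 + 16 * D ^ 2 / δ ^ 2
  obtain ⟨P, ho, hst, hd, hP⟩ := exists_sched (G := E d) (D := D) (Λ := 96 / β) (K := Kc) hes
    (by linarith) (by positivity) (by positivity) hκ T {0} hT (by simp) 1 (1 / 4) zero_le_one
    (by norm_num) (by norm_num)
  obtain ⟨m, hm, hsl⟩ := exists_slope ho.phOk
  set ε := δ / 2 / m
  have hε : 0 < ε := by positivity
  have hB : ∀ N, Build (E (d + 6)) (E d) δ β ε D Kc N := by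
    intro N
    induction N with
    | zero => exact fun t y l S hl hS =>
        seg_straight hβ0.le hε.le (by linarith) hδ0 le_rfl t y hl hS (Or.inl rfl)
    | succ N ih =>
      refine build_succ ih hβ0.le hβ1 hε (by linarith) hδ0 le_rfl
        (by rw [mul_div_cancel₀ _ hβ0.ne']) (exists_isom (d + 5)) hm.le
        (by rw [div_mul_cancel₀ _ hm.ne']) ho hst hd hsl ?_
      intro x x' hr hb hn
      exact hw _ hn (hP x x' hr (by simp [BiLip]) (by simpa using hb))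
  obtain ⟨N, hN⟩ := exists_nat_gt (2 * D ^ 2 / ε ^ 2)
  obtain ⟨K, hK⟩ := hB N t 0 l 0 hl (by simpa using hδ0.le)
  refine ⟨K, by simpa using hK.blk, fun f hf => ?_⟩
  have h0 : 0 ≤ Pot Kc f t 0 l 0 := by simp [Pot]
  have := hK.ne f hf h0
  rw [div_lt_iff₀ (by positivity)] at hN
  linarith

end Crest.Agent.R254
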