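import Crest.Agent.R254.Tame

/-! Row 254: cones, chains and small lemmas for the inner game. -/

set_option autoImplicit false

namespace Crest.Agent.R254

open Finset
open scoped RealInnerProductSpace

variable {F : Type} [NormedAddCommGroup F] [InnerProductSpace ℝ F]

def Cone (e : F) (δ : ℝ) (v : F) : Prop := ‖v - ⟪e, v⟫ • e‖ ≤ δ * |⟪e, v⟫|

variable {e es : F} {δ β : ℝ}

lemma Cone.neg {v : F} (h : Cone e δ v) : Cone e δ (-v) := by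
  unfold Cone at *
  have : -v - ⟪e, -v⟫ • e = -(v - ⟪e, v⟫ • e) := by rw [inner_neg_right, neg_smul]; abel
  rw [this, norm_neg, inner_neg_right, abs_neg]; exact h

lemma Cone.add {v w : F} (hv : Cone e δ v) (hw : Cone e δ w) (h1 : 0 ≤ ⟪e, v⟫) (h2 : 0 ≤ ⟪e, w⟫) :
    Cone e δ (v + w) := by
  unfold Cone at *
  have : v + w - ⟪e, v + w⟫ • e = (v - ⟪e, v⟫ • e) + (w - ⟪e, w⟫ • e) := by
    rw [inner_add_right, add_smul]; abel
  rw [this, inner_add_right, abs_of_nonneg (add_nonneg h1 h2)]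
  rw [abs_of_nonneg h1] at hv
  rw [abs_of_nonneg h2] at hw
  have := norm_add_le (v - ⟪e, v⟫ • e) (w - ⟪e, w⟫ • e)
  linarith

lemma cone_of (he : ‖e‖ = 1) {S w : F} {c : ℝ} (hS : ⟪e, S⟫ = 0) (hw : ⟪e, w⟫ = 0)
    (h : |c| * ‖S‖ + ‖w‖ ≤ δ * |c|) : Cone e δ (c • (e + S) + w) := by
  unfold Cone
  have h1 : ⟪e, c • (e + S) + w⟫ = c := by
    rw [inner_add_right, inner_smul_right, inner_add_right, hS, hw, real_inner_self_eq_norm_sq, he]
    ring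
  rw [h1]
  have : c • (e + S) + w - c • e = c • S + w := by rw [smul_add]; abel
  rw [this]
  have := norm_add_le (c • S) w
  rw [norm_smul, Real.norm_eq_abs] at this
  linarith

lemma Cone.norm_le (he : ‖e‖ = 1) {v : F} (h : Cone e δ v) : ‖v‖ ≤ (1 + δ) * |⟪e, v⟫| := by
  unfold Cone at h
  have := norm_add_le (v - ⟪e, v⟫ • e) (⟪e, v⟫ • e)
  rw [sub_add_cancel, norm_smul, he, Real.norm_eq_abs] at this
  linarith

lemma lineLike_of_cone (he : ‖e‖ = 1) {P : Set F} (h : ∀ p ∈ P, ∀ q ∈ P, Cone e δ (p - q)) :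
    LineLike δ P := by
  refine ⟨e, fun p => ⟪e, p⟫, fun p hp q hq => ?_⟩
  have := h p hp q hq
  unfold Cone at this
  rw [inner_sub_right] at this
  rw [norm_smul, he, mul_one, Real.norm_eq_abs]
  exact this

/-- A finite set which is a nearly horizontal graph between `a` and `b`. -/
def Chain (e es : F) (δ : ℝ) (a b : F) (M : Finset F) : Prop :=
  a ∈ M ∧ b ∈ M ∧ (∀ p ∈ M, ⟪es, p⟫ = 0 ∧ ⟪e, a⟫ ≤ ⟪e, p⟫ ∧ ⟪e, p⟫ ≤ ⟪e, b⟫) ∧
    ∀ p ∈ M, ∀ q ∈ M, Cone e δ (p - q)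

lemma Chain.concat [DecidableEq F] {a m b : F} {M1 M2 : Finset F} (h1 : Chain e es δ a m M1)
    (h2 : Chain e es δ m b M2) : Chain e es δ a b (M1 ∪ M2) := by
  obtain ⟨a1, m1, r1, c1⟩ := h1
  obtain ⟨m2, b2, r2, c2⟩ := h2
  have ham := (r1 m m1).2.1
  have hmb := (r2 b b2).2.1
  have cross : ∀ p ∈ M1, ∀ q ∈ M2, Cone e δ (q - p) := by
    intro p hp q hq
    have e1 : q - p = (q - m) + (m - p) := by abel
    rw [e1]
    refine (c2 q hq m m2).add (c1 m m1 p hp) ?_ ?_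
    · rw [inner_sub_right]; linarith [(r2 q hq).2.1]
    · rw [inner_sub_right]; linarith [(r1 p hp).2.2]
  refine ⟨mem_union_left _ a1, mem_union_right _ b2, ?_, ?_⟩
  · intro p hp
    rcases mem_union.1 hp with hp | hp
    · exact ⟨(r1 p hp).1, (r1 p hp).2.1, (r1 p hp).2.2.trans hmb⟩
    · exact ⟨(r2 p hp).1, ham.trans (r2 p hp).2.1, (r2 p hp).2.2⟩
  · intro p hp q hq
    rcases mem_union.1 hp with hp | hp <;> rcases mem_union.1 hq with hq | hq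
    · exact c1 p hp q hq
    · simpa using (cross p hp q hq).neg
    · exact cross q hq p hp
    · exact c2 p hp q hq

/-- Points on a straight segment form a chain. -/
lemma chain_line (he : ‖e‖ = 1) (hes : ⟪es, e⟫ = 0) {a S : F} (hS : ⟪e, S⟫ = 0)
    (hS' : ⟪es, S⟫ = 0) (ha : ⟪es, a⟫ = 0) (hSδ : ‖S‖ ≤ δ) {u0 u1 : ℝ} {M : Finset F}
    (h0 : a + u0 • (e + S) ∈ M) (h1 : a + u1 • (e + S) ∈ M)
    (h : ∀ p ∈ M, ∃ u, u0 ≤ u ∧ u ≤ u1 ∧ p = a + u • (e + S)) :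
    Chain e es δ (a + u0 • (e + S)) (a + u1 • (e + S)) M := by
  have hs : ∀ u : ℝ, ⟪e, a + u • (e + S)⟫ = ⟪e, a⟫ + u := by
    intro u
    rw [inner_add_right, inner_smul_right, inner_add_right, hS, real_inner_self_eq_norm_sq, he]
    ring
  refine ⟨h0, h1, ?_, ?_⟩
  · intro p hp
    obtain ⟨u, hu0, hu1, rfl⟩ := h p hp
    refine ⟨?_, by rw [hs, hs]; linarith, by rw [hs, hs]; linarith⟩
    rw [inner_add_right, inner_smul_right, inner_add_right, hS', hes, ha]; ring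
  · intro p hp q hq
    obtain ⟨u, -, -, rfl⟩ := h p hp
    obtain ⟨v, -, -, rfl⟩ := h q hq
    have : a + u • (e + S) - (a + v • (e + S)) = (u - v) • (e + S) + 0 := by
      rw [sub_smul]; abel
    rw [this]
    refine cone_of he hS (by simp) ?_
    have := mul_le_mul_of_nonneg_left hSδ (abs_nonneg (u - v))
    simp only [norm_zero]; linarith

lemma chain_pair [DecidableEq F] (he : ‖e‖ = 1) (hes : ⟪es, e⟫ = 0) {a S : F} (hS : ⟪e, S⟫ = 0)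
    (hS' : ⟪es, S⟫ = 0) (ha : ⟪es, a⟫ = 0) (hSδ : ‖S‖ ≤ δ) {R : ℝ} (hR : 0 ≤ R) :
    Chain e es δ a (a + R • (e + S)) {a, a + R • (e + S)} := by
  have := chain_line (u0 := 0) (u1 := R) (M := {a, a + R • (e + S)}) he hes hS hS' ha hSδ
    (by simp) (by simp) (by
      intro p hp
      rcases mem_insert.1 hp with rfl | hp
      · exact ⟨0, le_rfl, hR, by simp⟩
      · exact ⟨R, hR, le_rfl, mem_singleton.1 hp⟩)
  simpa using this

lemma tame_far {P X : Set F} (hP : LineLike δ P) (hX : Tame 2 δ β X) (hβ : 0 ≤ β) {z : F} {ρ : ℝ}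
    (hXz : ∀ x ∈ X, ‖x - z‖ ≤ ρ) (hfar : ∀ p ∈ P, ρ + β * ρ ≤ β * ‖p - z‖) :
    Tame 2 δ β (P ∪ X) := by
  intro r hr W hW hd
  by_cases h1 : W ⊆ X
  · exact hX r hr W h1 hd
  obtain ⟨p, hp, hpX⟩ := Set.not_subset.1 h1
  have hpP : p ∈ P := (hW hp).resolve_right hpX
  refine ⟨[P, {z}], by simp, ?_, fun w hw => ?_⟩
  · simp only [List.mem_cons, List.not_mem_nil, or_false]
    rintro _ (rfl | rfl)
    exacts [hP, lineLike_singleton z]
  · rcases hW hw with h | h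
    · exact ⟨P, by simp, w, h, by simpa using mul_nonneg hβ hr⟩
    · refine ⟨{z}, by simp, z, rfl, ?_⟩
      have a1 := hXz w h
      have a2 := hfar p hpP
      have a3 := hd p hp w hw
      have a4 : ‖p - z‖ ≤ ‖p - w‖ + ‖w - z‖ := norm_sub_le_norm_sub_add_norm_sub p w z
      have a5 := mul_le_mul_of_nonneg_left (a4.trans (add_le_add a3 a1)) hβ
      linarith

lemma norm_le_norm_add_of_orth {x w : F} (h : ⟪x, w⟫ = 0) : ‖w‖ ≤ ‖x + w‖ := by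
  have := norm_add_sq_real x w
  rw [h] at this
  exact abs_le_abs_of_sq (by nlinarith [sq_nonneg ‖x‖])
where abs_le_abs_of_sq {a b : ℝ} (h : a ^ 2 ≤ b ^ 2) (hb : 0 ≤ b := by positivity) : a ≤ b :=
  le_trans (le_abs_self a) (abs_le_of_sq_le_sq h hb)

/-- Energy identity for a path of three segments. -/
lemma three {G : Type} [NormedAddCommGroup G] [InnerProductSpace ℝ G] (A1 A2 A3 : G)
    {u1 u2 u3 τ : ℝ} (h1 : 0 < u1) (h2 : 0 < u2) (h3 : 0 < u3) (hs : u1 + u2 + u3 = 1)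
    (b1 : ‖A1‖ ^ 2 ≤ τ * u1 ^ 2) (b2 : ‖A2‖ ^ 2 ≤ τ * u2 ^ 2) (b3 : ‖A3‖ ^ 2 ≤ τ * u3 ^ 2) :
    ‖A1 - u1 • (A1 + A2 + A3)‖ ^ 2 ≤ u1 * (τ - ‖A1 + A2 + A3‖ ^ 2) ∧
    ‖A2 - u2 • (A1 + A2 + A3)‖ ^ 2 ≤ u2 * (τ - ‖A1 + A2 + A3‖ ^ 2) := by
  set W := A1 + A2 + A3 with hW
  have ex : ∀ (A : G) (u : ℝ), 0 < u → ‖A‖ ^ 2 ≤ τ * u ^ 2 →
      ‖A - u • W‖ ^ 2 / u ≤ τ * u - 2 * ⟪A, W⟫ + u * ‖W‖ ^ 2 := by
    intro A u hu hb
    rw [div_le_iff₀ hu, norm_sub_sq_real, inner_smul_right, norm_smul, Real.norm_of_nonneg hu.le]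
    nlinarith
  have e1 := ex A1 u1 h1 b1
  have e2 := ex A2 u2 h2 b2
  have e3 := ex A3 u3 h3 b3
  have hin : ⟪A1, W⟫ + ⟪A2, W⟫ + ⟪A3, W⟫ = ‖W‖ ^ 2 := by
    rw [← inner_add_left, ← inner_add_left, ← hW, real_inner_self_eq_norm_sq]
  have p1 : 0 ≤ ‖A1 - u1 • W‖ ^ 2 / u1 := by positivity
  have p2 : 0 ≤ ‖A2 - u2 • W‖ ^ 2 / u2 := by positivity
  have p3 : 0 ≤ ‖A3 - u3 • W‖ ^ 2 / u3 := by positivity
  have t1 : τ * u1 + τ * u2 + τ * u3 = τ := by rw [← mul_add, ← mul_add, hs, mul_one]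
  have t2 : u1 * ‖W‖ ^ 2 + u2 * ‖W‖ ^ 2 + u3 * ‖W‖ ^ 2 = ‖W‖ ^ 2 := by
    rw [← add_mul, ← add_mul, hs, one_mul]
  constructor
  · rw [mul_comm, ← div_le_iff₀ h1]; linarith
  · rw [mul_comm, ← div_le_iff₀ h2]; linarith

end Crest.Agent.R254
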