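import Crest.Agent.R254.Build
import Crest.Prelude.Def_Doubling

/-! Row 254: transfer to an arbitrary infinite-dimensional normed space. -/

set_option autoImplicit false

namespace Crest.Agent.R254

open Finset Module

variable {B : Type*} [NormedAddCommGroup B] [NormedSpace ℝ B]

lemma exists_T (hB : ¬ FiniteDimensional ℝ B) (φ : B →L[ℝ] ℝ) (m : ℕ) :
    ∃ (T : E m →ₗ[ℝ] B) (C : ℝ), 1 ≤ C ∧ (∀ z, φ (T z) = 0) ∧ (∀ z, ‖z‖ ≤ ‖T z‖) ∧
      ∀ z, ‖T z‖ ≤ C * ‖z‖ := by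
  have hk : ¬ Module.Finite ℝ (LinearMap.ker (φ : B →ₗ[ℝ] ℝ)) := by
    intro h
    apply hB
    have h1 := LinearMap.lift_rank_range_add_rank_ker (φ : B →ₗ[ℝ] ℝ)
    rw [FiniteDimensional, ← Module.rank_lt_aleph0_iff, ← Cardinal.lift_lt_aleph0, ← h1]
    exact Cardinal.add_lt_aleph0 (Cardinal.lift_lt_aleph0.2 (Module.rank_lt_aleph0 _ _))
      (Cardinal.lift_lt_aleph0.2 (Module.rank_lt_aleph0 _ _))
  rw [← Module.rank_lt_aleph0_iff, not_lt] at hk
  obtain ⟨v, hv⟩ := exists_linearIndependent_of_le_rank (R := ℝ) (n := m)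
    (Cardinal.natCast_lt_aleph0.le.trans hk)
  set T0 : E m →ₗ[ℝ] B := (LinearMap.ker (φ : B →ₗ[ℝ] ℝ)).subtype ∘ₗ
    (Fintype.linearCombination ℝ v) ∘ₗ (WithLp.linearEquiv 2 ℝ (Fin m → ℝ)).toLinearMap
  have hinj : Function.Injective T0 :=
    (Submodule.injective_subtype _).comp
      ((linearIndependent_iff_injective_fintypeLinearCombination.1 hv).comp
        (WithLp.linearEquiv 2 ℝ (Fin m → ℝ)).injective)
  obtain ⟨K, -, hK⟩ := T0.exists_antilipschitzWith (LinearMap.ker_eq_bot.2 hinj)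
  set T1 : E m →ₗ[ℝ] B := (K : ℝ) • T0
  refine ⟨T1, max 1 ‖LinearMap.toContinuousLinearMap T1‖, le_max_left _ _, fun z => ?_,
    fun z => ?_, fun z => ?_⟩
  · have : φ (T0 z) = 0 := (Fintype.linearCombination ℝ v _).2
    simp [T1, this]
  · have := ZeroHomClass.bound_of_antilipschitz T0 hK z
    simpa [T1, norm_smul] using this
  · exact ((LinearMap.toContinuousLinearMap T1).le_opNorm z).trans
      (mul_le_mul_of_nonneg_right (le_max_right _ _) (norm_nonneg _))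

/-- Properties of a set of curves which give a universal doubling constant. -/
structure Nice (φ : B →L[ℝ] ℝ) (K : Set (ℝ × B)) : Prop where
  ker : ∀ p ∈ K, φ p.2 = 0
  slide : ∀ p ∈ K, ∀ q ∈ K, ∃ z, (q.1, z) ∈ K ∧ ‖p.2 - z‖ ≤ |p.1 - q.1|
  count : ∀ (s ρ : ℝ) (Z : Finset B), 0 < ρ → (∀ z ∈ Z, (s, z) ∈ K) →
    (∀ p ∈ Z, ∀ q ∈ Z, p ≠ q → ρ ≤ ‖p - q‖) → (∀ p ∈ Z, ∀ q ∈ Z, ‖p - q‖ ≤ 17 * ρ) → Z.card ≤ 844

def EmbB {G : Type*} [NormedAddCommGroup G] (D : ℝ) (K : Set (ℝ × B)) (f : ℝ × B → G) : Prop :=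
  (∀ s z z', (s, z) ∈ K → (s, z') ∈ K → ‖z - z'‖ ≤ ‖f (s, z) - f (s, z')‖) ∧
    ∀ p ∈ K, ∀ q ∈ K, ‖f p - f q‖ ≤ D * (|p.1 - q.1| + ‖p.2 - q.2‖)

lemma exists_piece (hB : ¬ FiniteDimensional ℝ B) (φ : B →L[ℝ] ℝ) (d : ℕ) {D : ℝ} (hD : 1 ≤ D)
    (t : ℝ) {l : ℝ} (hl : 0 < l) : ∃ K : Set (ℝ × B), IsCompact K ∧ Nice φ K ∧
      (∀ p ∈ K, ‖p.2‖ ≤ p.1 - t ∧ ‖p.2‖ ≤ t + l - p.1) ∧ ∀ f : ℝ × B → E d, ¬ EmbB D K f := by
  classical
  obtain ⟨T, C, hC, hφ, h1, h2⟩ := exists_T hB φ (d + 6)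
  have hC0 : 0 < C := by linarith
  obtain ⟨K, hK, hf⟩ := exists_block d (D := D * C) (δ := 1 / (2 * C)) (β := 1 / (68 * C))
    (by nlinarith) (by positivity) (by rw [div_le_div_iff₀ (by positivity) (by norm_num)]; linarith)
    (by positivity) (by rw [div_le_one (by positivity)]; linarith) t hl
  have hTc : Continuous T := T.continuous_of_finiteDimensional
  have hinj : Function.Injective T := by
    intro a b h
    have := h1 (a - b)
    rw [map_sub, h, sub_self, norm_zero] at this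
    exact sub_eq_zero.1 (norm_le_zero_iff.1 this)
  have sl : ∀ p ∈ K, ∀ s, t ≤ s → s ≤ t + l → ∃ z, (s, z) ∈ K ∧ ‖T p.2 - T z‖ ≤ |p.1 - s| := by
    intro p hp s s0 s1
    obtain ⟨z, hz, hd⟩ := hK.slide p hp s s0 s1
    refine ⟨z, hz, ?_⟩
    rw [← map_sub]
    have := (h2 _).trans (mul_le_mul_of_nonneg_left hd hC0.le)
    rw [← mul_assoc, show C * (1 / (2 * C)) = 1 / 2 by field_simp] at this
    linarith [abs_nonneg (p.1 - s)]
  refine ⟨(fun p => (p.1, T p.2)) '' K, hK.cpt.image (by fun_prop), ⟨?_, ?_, ?_⟩, ?_, ?_⟩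
  · rintro _ ⟨p, -, rfl⟩; exact hφ _
  · rintro _ ⟨p, hp, rfl⟩ _ ⟨q, hq, rfl⟩
    obtain ⟨z, hz, hd⟩ := sl p hp q.1 (hK.rng q hq).1 (hK.rng q hq).2
    exact ⟨T z, ⟨_, hz, rfl⟩, hd⟩
  · intro s ρ Z hρ hZ hs hd
    have hpre : ∀ z ∈ Z, ∃ w, (s, w) ∈ K ∧ T w = z := by
      intro z hz
      obtain ⟨⟨s', w⟩, hw, h⟩ := hZ z hz
      obtain ⟨rfl, rfl⟩ := Prod.mk.inj h
      exact ⟨w, hw, rfl⟩
    have hsub : (Z : Set B) ⊆ Set.range T := fun z hz => let ⟨w, _, h⟩ := hpre z hz; ⟨w, h⟩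
    have hc := card_preimage Z T hinj.injOn
    rw [filter_true_of_mem fun z hz => hsub hz] at hc
    rw [← hc]
    refine (hK.tame s).card_le T h1 h2 hC0.le (by positivity) (le_of_eq (by field_simp))
      (le_of_eq (by field_simp; norm_num)) _ ?_ hρ ?_ ?_
    · intro w hw
      obtain ⟨w', h, h'⟩ := hpre _ (mem_preimage.1 hw)
      exact hinj h' ▸ h
    · intro p hp q hq hne
      rw [map_sub]
      exact hs _ (mem_preimage.1 hp) _ (mem_preimage.1 hq) (hinj.ne hne)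
    · intro p hp q hq
      rw [map_sub]
      exact hd _ (mem_preimage.1 hp) _ (mem_preimage.1 hq)
  · rintro _ ⟨p, hp, rfl⟩
    obtain ⟨r0, r1⟩ := hK.rng p hp
    obtain ⟨z, hz, hd⟩ := sl p hp t le_rfl hK.le
    obtain ⟨z', hz', hd'⟩ := sl p hp (t + l) hK.le le_rfl
    obtain rfl : z = 0 := (hK.ent z).1 hz
    obtain rfl : z' = 0 := (hK.ext z').1 hz'
    rw [map_zero, sub_zero] at hd hd'
    rw [abs_of_nonneg (by linarith)] at hd
    rw [abs_of_nonpos (by linarith)] at hd'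
    exact ⟨hd, by simp only; linarith⟩
  · intro f hf'
    refine hf (fun p => f (p.1, T p.2)) ⟨fun s z z' hz hz' => ?_, fun p hp q hq => ?_⟩
    · refine le_trans ?_ (hf'.1 s _ _ ⟨_, hz, rfl⟩ ⟨_, hz', rfl⟩)
      rw [← map_sub]; exact h1 _
    · refine (hf'.2 _ ⟨_, hp, rfl⟩ _ ⟨_, hq, rfl⟩).trans ?_
      simp only
      rw [← map_sub, mul_assoc]
      refine mul_le_mul_of_nonneg_left ?_ (by linarith)
      nlinarith [h2 (p.2 - q.2), abs_nonneg (p.1 - q.1)]

lemma doubling_of_sep {X : Type*} [PseudoMetricSpace X] {S : Set X} {Λ : ℕ}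
    (h : ∀ x ∈ S, ∀ r : ℝ, 0 < r → ∀ C : Finset X, ↑C ⊆ S ∩ Metric.closedBall x (2 * r) →
      (∀ p ∈ C, ∀ q ∈ C, p ≠ q → r ≤ dist p q) → C.card ≤ Λ) :
    Crest.GeometryTopology.DoublingConstLE S Λ := by
  classical
  intro x hx r hr
  set A : Set ℕ := {n | ∃ C : Finset X, ↑C ⊆ S ∩ Metric.closedBall x (2 * r) ∧
      (∀ p ∈ C, ∀ q ∈ C, p ≠ q → r ≤ dist p q) ∧ C.card = n}
  have hb : BddAbove A := ⟨Λ, by rintro _ ⟨C, h1, h2, rfl⟩; exact h x hx r hr C h1 h2⟩
  obtain ⟨C, h1, h2, h3⟩ := Nat.sSup_mem (s := A) ⟨0, ∅, by simp, by simp, rfl⟩ hb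
  refine ⟨C, h1.trans Set.inter_subset_left, h x hx r hr C h1 h2, fun y hy => ?_⟩
  by_contra hn
  simp only [Set.mem_iUnion, Metric.mem_closedBall, not_exists, not_le] at hn
  have hyC : y ∉ C := fun hyC => by have := hn y hyC; simp at this; linarith
  have : (insert y C).card ∈ A := by
    refine ⟨_, ?_, ?_, rfl⟩
    · rw [coe_insert]; exact Set.insert_subset hy h1
    · intro p hp q hq hne
      rcases mem_insert.1 hp with rfl | hp' <;> rcases mem_insert.1 hq with rfl | hq'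
      · exact absurd rfl hne
      · exact (hn q hq').le
      · rw [dist_comm]; exact (hn p hp').le
      · exact h2 p hp' q hq' hne
  have := le_csSup hb this
  rw [card_insert_of_notMem hyC] at this
  omega

lemma Nice.doubling {φ : B →L[ℝ] ℝ} {e : B} (he : ‖e‖ = 1) (hφ : ‖φ‖ = 1) (hφe : φ e = 1)
    {K : Set (ℝ × B)} (hK : Nice φ K) :
    Crest.GeometryTopology.DoublingConstLE ((fun p : ℝ × B => p.1 • e + p.2) '' K) (33 * 844) := by
  classical
  set Φ := fun p : ℝ × B => p.1 • e + p.2 with hΦ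
  have c1 : ∀ p ∈ K, ∀ q ∈ K, |p.1 - q.1| ≤ ‖Φ p - Φ q‖ := by
    intro p hp q hq
    have := φ.le_opNorm (Φ p - Φ q)
    simpa [hφ, hΦ, hφe, hK.ker p hp, hK.ker q hq] using this
  have c2 : ∀ p q, |‖Φ p - Φ q‖ - ‖p.2 - q.2‖| ≤ |p.1 - q.1| := by
    intro p q
    have := abs_norm_sub_norm_le (Φ p - Φ q) (p.2 - q.2)
    rwa [show Φ p - Φ q - (p.2 - q.2) = (p.1 - q.1) • e by simp only [hΦ]; module, norm_smul, he,
      mul_one] at this
  refine doubling_of_sep ?_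
  rintro _ ⟨x, hx, rfl⟩ r hr C hC hs
  have hpre : ∀ c ∈ C, ∃ p ∈ K, Φ p = c := fun c hc => (hC hc).1
  choose! π hπ hπ' using hpre
  have hball : ∀ c ∈ C, ‖c - Φ x‖ ≤ 2 * r := fun c hc => by
    simpa [dist_eq_norm] using (hC hc).2
  have hr8 : 0 < r / 8 := by linarith
  have := card_le_mul_card_image_of_maps_to (s := C) (t := Icc (-16 : ℤ) 16)
    (f := fun c => ⌊((π c).1 - x.1) / (r / 8)⌋) (by
      intro c hc
      have h1 := c1 _ (hπ c hc) x hx
      rw [hπ' c hc] at h1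
      have h2 := abs_le.1 (h1.trans (hball c hc))
      rw [mem_Icc]
      constructor
      · rw [Int.le_floor, le_div_iff₀ hr8]; push_cast; linarith
      · rw [Int.floor_le_iff, div_lt_iff₀ hr8]; push_cast; linarith) 844 (by
      intro b _
      set W := C.filter fun c => ⌊((π c).1 - x.1) / (r / 8)⌋ = b
      rcases W.eq_empty_or_nonempty with h | ⟨c0, hc0⟩
      · simp [h]
      have hW : ∀ c ∈ W, c ∈ C := fun c hc => (mem_filter.1 hc).1
      have ht : ∀ c ∈ W, ∀ c' ∈ W, |(π c).1 - (π c').1| ≤ r / 8 := by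
        intro c hc c' hc'
        have h2 := Int.abs_sub_lt_one_of_floor_eq_floor
          ((mem_filter.1 hc).2.trans (mem_filter.1 hc').2.symm)
        rw [← sub_div, abs_div, abs_of_pos hr8, div_lt_one hr8, sub_sub_sub_cancel_right] at h2
        exact h2.le
      have hsl : ∀ c ∈ W, ∃ z, ((π c0).1, z) ∈ K ∧ ‖(π c).2 - z‖ ≤ r / 8 := by
        intro c hc
        obtain ⟨z, hz, hd⟩ := hK.slide _ (hπ c (hW c hc)) _ (hπ c0 (hW c0 hc0))
        exact ⟨z, hz, hd.trans (ht c hc c0 hc0)⟩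
      choose! z hz hzd using hsl
      have cmp : ∀ c ∈ W, ∀ c' ∈ W, |‖c - c'‖ - ‖z c - z c'‖| ≤ 3 * r / 8 := by
        intro c hc c' hc'
        have a1 := c2 (π c) (π c')
        rw [hπ' c (hW c hc), hπ' c' (hW c' hc')] at a1
        have a2 := abs_norm_sub_norm_le ((π c).2 - (π c').2) (z c - z c')
        rw [show (π c).2 - (π c').2 - (z c - z c') = ((π c).2 - z c) - ((π c').2 - z c') by abel]
          at a2
        have a3 := norm_sub_le ((π c).2 - z c) ((π c').2 - z c')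
        have a4 := abs_sub_le ‖c - c'‖ ‖(π c).2 - (π c').2‖ ‖z c - z c'‖
        linarith [ht c hc c' hc', hzd c hc, hzd c' hc']
      have sepz : ∀ c ∈ W, ∀ c' ∈ W, c ≠ c' → r / 2 ≤ ‖z c - z c'‖ := by
        intro c hc c' hc' hne
        have a1 := hs c (hW c hc) c' (hW c' hc') hne
        rw [dist_eq_norm] at a1
        linarith [(abs_le.1 (cmp c hc c' hc')).2]
      have hinj : Set.InjOn z W := by
        intro c hc c' hc' h
        by_contra hne
        have := sepz c hc c' hc' hne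
        rw [h, sub_self, norm_zero] at this
        linarith
      rw [← card_image_of_injOn hinj]
      refine hK.count (π c0).1 (r / 2) _ (by linarith) ?_ ?_ ?_
      · intro w hw
        obtain ⟨c, hc, rfl⟩ := mem_image.1 hw
        exact hz c hc
      · intro w hw w' hw' hne
        obtain ⟨c, hc, rfl⟩ := mem_image.1 hw
        obtain ⟨c', hc', rfl⟩ := mem_image.1 hw'
        exact sepz c hc c' hc' (by rintro rfl; exact hne rfl)
      · intro w hw w' hw'
        obtain ⟨c, hc, rfl⟩ := mem_image.1 hw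
        obtain ⟨c', hc', rfl⟩ := mem_image.1 hw'
        have a1 := norm_sub_le_norm_sub_add_norm_sub c (Φ x) c'
        have a2 := hball c' (hW c' hc')
        rw [norm_sub_rev] at a2
        linarith [(abs_le.1 (cmp c hc c' hc')).1, hball c (hW c hc)])
  simpa [mul_comm] using this

lemma exists_all (hB : ¬ FiniteDimensional ℝ B) (φ : B →L[ℝ] ℝ) : ∃ K : Set (ℝ × B), IsCompact K ∧
    Nice φ K ∧ ∀ (d : ℕ) (D : ℝ) (f : ℝ × B → E d), ¬ EmbB D K f := by
  choose K hc hn hb hf using fun n : ℕ => exists_piece hB φ n.unpair.1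
    (D := (n.unpair.2 : ℝ) + 1) (by simp) ((1 / 2) ^ (n + 1)) (l := (1 / 2) ^ (n + 1))
    (by positivity)
  have e2 : ∀ n : ℕ, (1 / 2 : ℝ) ^ (n + 1) + (1 / 2) ^ (n + 1) = (1 / 2) ^ n := by
    intro n; ring
  simp only [e2] at hb
  have cross : ∀ n m, n ≠ m → ∀ p ∈ K n, ∀ q ∈ K m, ‖p.2 - q.2‖ ≤ |p.1 - q.1| := by
    have : ∀ n m, n < m → ∀ p ∈ K n, ∀ q ∈ K m, ‖p.2 - q.2‖ ≤ |p.1 - q.1| := by
      intro n m h p hp q hq
      have h1 : (1 / 2 : ℝ) ^ m ≤ (1 / 2) ^ (n + 1) :=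
        pow_le_pow_of_le_one (by norm_num) (by norm_num) h
      linarith [norm_sub_le p.2 q.2, (hb n p hp).1, (hb m q hq).2, le_abs_self (p.1 - q.1)]
    intro n m h p hp q hq
    rcases lt_or_gt_of_ne h with h | h
    · exact this n m h p hp q hq
    · rw [norm_sub_rev, abs_sub_comm]; exact this m n h q hq p hp
  have orig : ∀ n, ∀ p ∈ K n, ‖p.2‖ ≤ |p.1| ∧ 0 < p.1 ∧ p.1 ≤ (1 / 2) ^ n := by
    intro n p hp
    have : (0 : ℝ) < (1 / 2) ^ (n + 1) := by positivity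
    have h1 := hb n p hp
    have h2 := norm_nonneg p.2
    exact ⟨by linarith [le_abs_self p.1], by linarith, by linarith⟩
  refine ⟨insert 0 (⋃ n, K n), ?_, ⟨?_, ?_, ?_⟩, ?_⟩
  · refine isCompact_of_finite_subcover fun U hU hcov => ?_
    classical
    obtain ⟨i, hi⟩ := Set.mem_iUnion.1 (hcov (Set.mem_insert _ _))
    obtain ⟨r, hr, hball⟩ := Metric.isOpen_iff.1 (hU i) 0 hi
    obtain ⟨N, hN⟩ := exists_pow_lt_of_lt_one hr (show (1 / 2 : ℝ) < 1 by norm_num)
    obtain ⟨s, hs⟩ := ((range N).isCompact_biUnion fun n _ => hc n).elim_finite_subcover U hU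
      (fun p hp => hcov (Or.inr (by
        simp only [Set.mem_iUnion] at hp ⊢
        obtain ⟨n, -, h⟩ := hp; exact ⟨n, h⟩)))
    refine ⟨insert i s, ?_⟩
    rw [set_biUnion_insert]
    rintro p (rfl | hp)
    · exact Or.inl hi
    · obtain ⟨n, hp⟩ := Set.mem_iUnion.1 hp
      rcases lt_or_ge n N with h | h
      · exact Or.inr (hs (Set.mem_biUnion (mem_coe.2 (mem_range.2 h)) hp))
      · refine Or.inl (hball ?_)
        obtain ⟨a1, a2, a3⟩ := orig n p hp
        have h1 : (1 / 2 : ℝ) ^ n ≤ (1 / 2) ^ N :=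
          pow_le_pow_of_le_one (by norm_num) (by norm_num) h
        rw [abs_of_pos a2] at a1
        rw [mem_ball_zero_iff, Prod.norm_def, Real.norm_of_nonneg a2.le]
        exact max_lt (by linarith) (by linarith)
  · rintro p (rfl | hp)
    · simp
    · obtain ⟨n, hp⟩ := Set.mem_iUnion.1 hp
      exact (hn n).ker p hp
  · rintro p (rfl | hp) q hq
    · refine ⟨q.2, hq, ?_⟩
      rcases hq with rfl | hq
      · simp
      · obtain ⟨n, hq⟩ := Set.mem_iUnion.1 hq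
        simpa using (orig n q hq).1
    · obtain ⟨n, hp⟩ := Set.mem_iUnion.1 hp
      rcases hq with rfl | hq
      · exact ⟨0, Or.inl rfl, by simpa using (orig n p hp).1⟩
      · obtain ⟨m, hq⟩ := Set.mem_iUnion.1 hq
        by_cases h : n = m
        · subst h
          obtain ⟨z, hz, hd⟩ := (hn n).slide p hp q hq
          exact ⟨z, Or.inr (Set.mem_iUnion.2 ⟨n, hz⟩), hd⟩
        · exact ⟨q.2, Or.inr (Set.mem_iUnion.2 ⟨m, hq⟩), cross n m h p hp q hq⟩
  · intro s ρ Z hρ hZ hs hd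
    by_cases h : ∃ z0 ∈ Z, ∃ n, (s, z0) ∈ K n
    · obtain ⟨z0, -, n, h0⟩ := h
      refine (hn n).count s ρ Z hρ (fun z hz => ?_) hs hd
      rcases hZ z hz with h | h
      · have := (orig n _ h0).2.1
        rw [(Prod.mk.inj h).1] at this
        simp at this
      · obtain ⟨m, h⟩ := Set.mem_iUnion.1 h
        by_cases hnm : n = m
        · exact hnm ▸ h
        · have := cross n m hnm _ h0 _ h
          simp only [sub_self, abs_zero, norm_le_zero_iff, sub_eq_zero] at this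
          exact this ▸ h0
    · refine (card_le_card (show Z ⊆ {0} from fun z hz => ?_)).trans (by simp)
      rcases hZ z hz with h' | h'
      · exact mem_singleton.2 (Prod.mk.inj h').2
      · obtain ⟨m, h'⟩ := Set.mem_iUnion.1 h'
        exact absurd ⟨z, hz, m, h'⟩ h
  · intro d D f hf'
    obtain ⟨N, hN⟩ := exists_nat_gt D
    have key := hf (Nat.pair d N)
    rw [Nat.unpair_pair] at key
    have sub : K (Nat.pair d N) ⊆ insert 0 (⋃ n, K n) :=
      (Set.subset_iUnion K _).trans (Set.subset_insert _ _)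
    refine key f ⟨fun s z z' a b => hf'.1 s z z' (sub a) (sub b), fun p a q b =>
      (hf'.2 p (sub a) q (sub b)).trans (mul_le_mul_of_nonneg_right (by simp only; linarith)
        (by positivity))⟩

universe u v

theorem main : ∃ Λ : ℕ, ∀ (B : Type u) [NormedAddCommGroup B] [NormedSpace ℝ B] [CompleteSpace B],
      ¬ FiniteDimensional ℝ B →
      ∃ K : Set B, IsCompact K ∧ Crest.GeometryTopology.DoublingConstLE K Λ ∧
        ∀ (Y : Type v) [NormedAddCommGroup Y] [NormedSpace ℝ Y] [FiniteDimensional ℝ Y]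
          (f : K → Y) (c C : NNReal), ¬ (LipschitzWith C f ∧ AntilipschitzWith c f) := by
  refine ⟨33 * 844, fun B _ _ _ hB => ?_⟩
  have : Nontrivial B := by
    by_contra h
    rw [not_nontrivial_iff_subsingleton] at h
    exact hB inferInstance
  obtain ⟨e, he⟩ := exists_norm_eq B zero_le_one
  obtain ⟨φ, hφ, hφe⟩ := exists_dual_vector ℝ e (by simp [he])
  obtain ⟨K, hc, hn, hf⟩ := exists_all hB φ
  refine ⟨_, hc.image (by fun_prop), hn.doubling he hφ (by simpa [he] using hφe), ?_⟩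
  rintro Y _ _ _ f c C ⟨h1, h2⟩
  classical
  let Φ := fun p : ℝ × B => p.1 • e + p.2
  have hΦ : Φ = fun p : ℝ × B => p.1 • e + p.2 := rfl
  set L : Y ≃L[ℝ] E (finrank ℝ Y) :=
    ContinuousLinearEquiv.ofFinrankEq finrank_euclideanSpace_fin.symm
  set a : ℝ := c * ‖(L.symm : E (finrank ℝ Y) →L[ℝ] Y)‖ with ha
  have ha0 : 0 ≤ a := by positivity
  refine hf (finrank ℝ Y) (a * (‖(L : Y →L[ℝ] E (finrank ℝ Y))‖ * C))
    (fun p => if h : p ∈ K then a • L (f ⟨Φ p, p, h, rfl⟩) else 0) ⟨?_, ?_⟩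
  · intro s z z' hz hz'
    simp only [hz, hz', dif_pos]
    rw [← smul_sub, ← map_sub, norm_smul, Real.norm_of_nonneg ha0]
    have b1 := h2.le_mul_dist ⟨Φ (s, z), _, hz, rfl⟩ ⟨Φ (s, z'), _, hz', rfl⟩
    rw [Subtype.dist_eq, dist_eq_norm, dist_eq_norm] at b1
    simp only [hΦ, add_sub_add_left_eq_sub] at b1
    refine b1.trans ?_
    rw [ha, mul_assoc]
    refine mul_le_mul_of_nonneg_left ?_ c.2
    simpa using (L.symm : E (finrank ℝ Y) →L[ℝ] Y).le_opNorm
      (L (f ⟨Φ (s, z), _, hz, rfl⟩ - f ⟨Φ (s, z'), _, hz', rfl⟩))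
  · intro p hp q hq
    simp only [hp, hq, dif_pos]
    rw [← smul_sub, ← map_sub, norm_smul, Real.norm_of_nonneg ha0, mul_assoc a,
      mul_assoc _ (C : ℝ)]
    refine mul_le_mul_of_nonneg_left (((L : Y →L[ℝ] E (finrank ℝ Y)).le_opNorm _).trans
      (mul_le_mul_of_nonneg_left ?_ (norm_nonneg _))) ha0
    have b1 := h1.dist_le_mul ⟨Φ p, _, hp, rfl⟩ ⟨Φ q, _, hq, rfl⟩
    rw [Subtype.dist_eq, dist_eq_norm, dist_eq_norm] at b1
    refine b1.trans (mul_le_mul_of_nonneg_left ?_ C.2)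
    have : Φ p - Φ q = (p.1 - q.1) • e + (p.2 - q.2) := by simp only [hΦ]; module
    simp only [this]
    refine (norm_add_le _ _).trans (le_of_eq ?_)
    rw [norm_smul, he, mul_one, Real.norm_eq_abs]

end Crest.Agent.R254
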