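import Mathlib

/-! Row 254: the online embedding game (finite strategy trees, survival, compactness). -/

set_option autoImplicit false

namespace Crest.Agent.R254

open Filter Topology

/-- Strategy trees of the adversary. -/
inductive Tr (F : Type) : Type
  | leaf : Tr F
  | add : F → Tr F → Tr F
  | both : Tr F → Tr F → Tr F

variable {F G : Type} [NormedAddCommGroup F] [NormedAddCommGroup G] [DecidableEq F]

def BiLip (D : ℝ) (Y : Finset F) (φ : F → G) : Prop :=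
  ∀ p ∈ Y, ∀ q ∈ Y, ‖p - q‖ ≤ ‖φ p - φ q‖ ∧ ‖φ p - φ q‖ ≤ D * ‖p - q‖

def Close (κ : ℝ) (Y : Finset F) (φ φ' : F → G) : Prop := ∀ q ∈ Y, ‖φ' q - φ q‖ ≤ κ

/-- The embedder survives, old images being allowed to move by `κ` at each step. -/
def Surv (D κ : ℝ) : Tr F → Finset F → (F → G) → Prop
  | .leaf, Y, φ => BiLip D Y φ
  | .add p T, Y, φ => BiLip D Y φ ∧ ∃ φ', Close κ Y φ φ' ∧ Surv D κ T (insert p Y) φ'
  | .both T1 T2, Y, φ => BiLip D Y φ ∧ (∃ φ', Close κ Y φ φ' ∧ Surv D κ T1 Y φ') ∧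
      (∃ φ', Close κ Y φ φ' ∧ Surv D κ T2 Y φ')

/-- All final configurations are good. -/
def TG (Good : Finset F → Prop) : Tr F → Finset F → Prop
  | .leaf, Y => Good Y
  | .add p T, Y => TG Good T (insert p Y)
  | .both T1 T2, Y => TG Good T1 Y ∧ TG Good T2 Y

variable {D κ : ℝ} {Good : Finset F → Prop}

omit [NormedAddCommGroup F] in
lemma TG.good (hG : ∀ Y Y', Good Y → Y' ⊆ Y → Good Y') :
    ∀ (T : Tr F) (Y : Finset F), TG Good T Y → Good Y
  | .leaf, _, h => h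
  | .add p T, Y, h => hG _ _ (TG.good hG T _ h) (Finset.subset_insert p Y)
  | .both T1 _, _, h => TG.good hG T1 _ h.1

lemma Surv.biLip : ∀ {T : Tr F} {Y : Finset F} {φ : F → G}, Surv D κ T Y φ → BiLip D Y φ
  | .leaf, _, _, h => h
  | .add _ _, _, _, h => h.1
  | .both _ _, _, _, h => h.1

omit [DecidableEq F] in
lemma BiLip.congr {Y : Finset F} {φ φ' : F → G} (h : BiLip D Y φ) (he : ∀ q ∈ Y, φ' q = φ q) :
    BiLip D Y φ' := by
  intro p hp q hq; rw [he p hp, he q hq]; exact h p hp q hq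

omit [DecidableEq F] in
lemma BiLip.mono {Y Y' : Finset F} {φ : F → G} (h : BiLip D Y φ) (hY : Y' ⊆ Y) : BiLip D Y' φ :=
  fun p hp q hq => h p (hY hp) q (hY hq)

omit [NormedAddCommGroup F] [DecidableEq F] in
lemma Close.congr {Y : Finset F} {φ φ' ψ : F → G} (h : Close κ Y φ ψ) (he : ∀ q ∈ Y, φ' q = φ q) :
    Close κ Y φ' ψ := by
  intro q hq; rw [he q hq]; exact h q hq

omit [NormedAddCommGroup F] [DecidableEq F] in
lemma Close.eq {Y : Finset F} {φ ψ : F → G} (h : Close 0 Y φ ψ) : ∀ q ∈ Y, ψ q = φ q :=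
  fun q hq => sub_eq_zero.1 (norm_le_zero_iff.1 (h q hq))

lemma Surv.congr : ∀ {T : Tr F} {Y : Finset F} {φ φ' : F → G}, Surv D κ T Y φ →
    (∀ q ∈ Y, φ' q = φ q) → Surv D κ T Y φ'
  | .leaf, _, _, _, h, he => BiLip.congr h he
  | .add _ _, _, _, _, ⟨h1, ψ, h2, h3⟩, he => ⟨h1.congr he, ψ, h2.congr he, h3⟩
  | .both _ _, _, _, _, ⟨h1, ⟨ψ, h2, h3⟩, ⟨ψ', h2', h3'⟩⟩, he =>
      ⟨h1.congr he, ⟨ψ, h2.congr he, h3⟩, ⟨ψ', h2'.congr he, h3'⟩⟩

omit [DecidableEq F] in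
lemma biLip_lim {Y : Finset F} {φ : ℕ → F → G} {φ0 : F → G} (h : ∀ n, BiLip D Y (φ n))
    (hl : ∀ q ∈ Y, Tendsto (fun n => φ n q) atTop (𝓝 (φ0 q))) : BiLip D Y φ0 := by
  intro p hp q hq
  have ht := ((hl p hp).sub (hl q hq)).norm
  exact ⟨ge_of_tendsto' ht fun n => (h n p hp q hq).1, le_of_tendsto' ht fun n => (h n p hp q hq).2⟩

omit [NormedAddCommGroup F] [DecidableEq F] in
lemma close_lim {Y : Finset F} {κ : ℕ → ℝ} (hκ : Tendsto κ atTop (𝓝 0)) {φ φ' : ℕ → F → G}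
    {φ0 : F → G} (h : ∀ n, Close (κ n) Y (φ n) (φ' n))
    (hl : ∀ q ∈ Y, Tendsto (fun n => φ n q) atTop (𝓝 (φ0 q))) :
    ∀ q ∈ Y, Tendsto (fun n => φ' n q) atTop (𝓝 (φ0 q)) := by
  intro q hq
  have h0 : Tendsto (fun n => φ' n q - φ n q) atTop (𝓝 0) :=
    squeeze_zero_norm (fun n => h n q hq) hκ
  simpa using h0.add (hl q hq)

lemma surv_lim [ProperSpace G] : ∀ (T : Tr F) (Y : Finset F), Y.Nonempty → ∀ (κ : ℕ → ℝ),
    Tendsto κ atTop (𝓝 0) → ∀ (φ : ℕ → F → G) (φ0 : F → G), (∀ n, Surv D (κ n) T Y (φ n)) →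
    (∀ q ∈ Y, Tendsto (fun n => φ n q) atTop (𝓝 (φ0 q))) → Surv D 0 T Y φ0
  | .leaf, _, _, _, _, _, _, h, hl => biLip_lim h hl
  | .both T1 T2, Y, hY, κ, hκ, φ, φ0, h, hl => by
    refine ⟨biLip_lim (fun n => (h n).1) hl, ⟨φ0, fun q _ => by simp, ?_⟩,
      ⟨φ0, fun q _ => by simp, ?_⟩⟩
    · choose φ' h1 h2 using fun n => (h n).2.1
      exact surv_lim T1 Y hY κ hκ φ' φ0 h2 (close_lim hκ h1 hl)
    · choose φ' h1 h2 using fun n => (h n).2.2
      exact surv_lim T2 Y hY κ hκ φ' φ0 h2 (close_lim hκ h1 hl)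
  | .add p T, Y, hY, κ, hκ, φ, φ0, h, hl => by
    refine ⟨biLip_lim (fun n => (h n).1) hl, ?_⟩
    choose φ' h1 h2 using fun n => (h n).2
    have hl' := close_lim hκ h1 hl
    obtain ⟨q0, hq0⟩ := hY
    obtain ⟨x, -, ι, hι, hx⟩ := tendsto_subseq_of_bounded
      (Metric.isBounded_closedBall (x := (0 : G)) (r := D * ‖p - q0‖))
      (x := fun n => φ' n p - φ' n q0) (fun n => by
        simpa using ((h2 n).biLip p (Finset.mem_insert_self _ _) q0
          (Finset.mem_insert_of_mem hq0)).2)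
    refine ⟨fun q => if q ∈ Y then φ0 q else x + φ0 q0, fun q hq => by simp [hq], ?_⟩
    refine surv_lim T _ (Finset.insert_nonempty _ _) (κ ∘ ι) (hκ.comp hι.tendsto_atTop)
      (fun n => φ' (ι n)) _ (fun n => h2 (ι n)) ?_
    intro q hq
    by_cases hqY : q ∈ Y
    · simp only [hqY, if_true]
      exact (hl' q hqY).comp hι.tendsto_atTop
    · simp only [hqY, if_false]
      obtain rfl : q = p := by simpa [hqY] using hq
      have := hx.add ((hl' q0 hq0).comp hι.tendsto_atTop)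
      simpa [Function.comp_def] using this

lemma exists_kappa [ProperSpace G] (T : Tr F) (h : ∀ φ : F → G, ¬ Surv D 0 T {0} φ) :
    ∃ κ : ℝ, 0 < κ ∧ ∀ φ : F → G, ‖φ 0‖ ≤ 1 → ¬ Surv D κ T {0} φ := by
  by_contra hne
  push Not at hne
  choose φ h1 h2 using fun n : ℕ => hne (1 / ((n : ℝ) + 1)) (by positivity)
  obtain ⟨x, -, ι, hι, hx⟩ := tendsto_subseq_of_bounded
    (Metric.isBounded_closedBall (x := (0 : G)) (r := 1)) (x := fun n => φ n 0)
    (fun n => by simpa using h1 n)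
  refine h (fun _ => x) (surv_lim T {0} (by simp) (fun n => 1 / ((ι n : ℝ) + 1))
    (tendsto_one_div_add_atTop_nhds_zero_nat.comp hι.tendsto_atTop) (fun n => φ (ι n)) _
    (fun n => h2 (ι n)) ?_)
  intro q hq
  obtain rfl : q = 0 := by simpa using hq
  exact hx

/-- The adversary wins from every state in `A`. -/
def Win (D : ℝ) (Good : Finset F → Prop) (Y : Finset F) (A : (F → G) → Prop) : Prop :=
  ∃ T : Tr F, TG Good T Y ∧ ∀ φ, A φ → ¬ Surv D 0 T Y φ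

lemma win_leaf {Y : Finset F} {A : (F → G) → Prop} (hY : Good Y)
    (h : ∀ φ, A φ → ¬ BiLip D Y φ) : Win D Good Y A := ⟨.leaf, hY, h⟩

lemma win_addset {A A' : (F → G) → Prop} (N : Finset F) : ∀ Y : Finset F,
    Win D Good (Y ∪ N) A' → (∀ φ φ', A φ → (∀ q ∈ Y, φ' q = φ q) → A' φ') → Win D Good Y A := by
  induction N using Finset.induction_on generalizing A with
  | empty =>
    intro Y ⟨T, h1, h2⟩ h
    rw [Finset.union_empty] at h1 h2
    exact ⟨T, h1, fun φ hφ => h2 φ (h φ φ hφ fun _ _ => rfl)⟩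
  | insert p N _ ih =>
    intro Y hw h
    have e : Y ∪ insert p N = insert p Y ∪ N := by ext x; simp
    rw [e] at hw
    obtain ⟨T, h1, h2⟩ := ih (A := fun φ' => ∃ φ, A φ ∧ ∀ q ∈ Y, φ' q = φ q) (insert p Y) hw (by
      rintro φ1 φ2 ⟨φ, hφ, he⟩ he'
      exact h φ φ2 hφ fun q hq => (he' q (Finset.mem_insert_of_mem hq)).trans (he q hq))
    refine ⟨.add p T, h1, ?_⟩
    rintro φ hφ ⟨-, φ', h3, h4⟩
    exact h2 φ' ⟨φ, hφ, h3.eq⟩ h4

lemma win_finite {ι : Type*} {Y : Finset F} (hY : Good Y) (s : Finset ι)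
    (A : ι → (F → G) → Prop) (h : ∀ i ∈ s, Win D Good Y (A i)) :
    Win D Good Y (fun φ => ¬ BiLip D Y φ ∨ ∃ i ∈ s, A i φ) := by
  classical
  induction s using Finset.induction_on with
  | empty => exact win_leaf hY (by simp)
  | insert i s _ ih =>
    obtain ⟨T1, h1, h2⟩ := ih fun j hj => h j (Finset.mem_insert_of_mem hj)
    obtain ⟨T2, h3, h4⟩ := h i (Finset.mem_insert_self _ _)
    refine ⟨.both T1 T2, ⟨h1, h3⟩, ?_⟩
    rintro φ hφ ⟨hb, ⟨φ1, c1, s1⟩, ⟨φ2, c2, s2⟩⟩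
    have s1' := s1.congr (φ' := φ) fun q hq => (c1.eq q hq).symm
    have s2' := s2.congr (φ' := φ) fun q hq => (c2.eq q hq).symm
    rcases hφ with hφ | ⟨j, hj, hφ⟩
    · exact hφ hb
    · rcases Finset.mem_insert.1 hj with rfl | hj
      · exact h4 φ hφ s2'
      · exact h2 φ (Or.inr ⟨j, hj, hφ⟩) s1'

/-- One adaptive move: choose among finitely many options, each adding a finite set. -/
lemma win_step {ι : Type*} {Y : Finset F} (hY : Good Y) (s : Finset ι) (N : ι → Finset F)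
    (A' : ι → (F → G) → Prop) (h : ∀ i ∈ s, Win D Good (Y ∪ N i) (A' i)) {A : (F → G) → Prop}
    (hA : ∀ φ, A φ → BiLip D Y φ → ∃ i ∈ s, ∀ φ', (∀ q ∈ Y, φ' q = φ q) → A' i φ') :
    Win D Good Y A := by
  obtain ⟨T, h1, h2⟩ := win_finite (D := D) hY s
    (fun i φ => ∀ φ', (∀ q ∈ Y, φ' q = φ q) → A' i φ')
    (fun i hi => win_addset (N i) Y (h i hi) fun φ φ' h1 h2 => h1 φ' h2)
  refine ⟨T, h1, fun φ hφ => h2 φ ?_⟩
  by_cases hb : BiLip D Y φ
  · exact Or.inr (hA φ hφ hb)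
  · exact Or.inl hb

lemma Win.mono {Y : Finset F} {A A' : (F → G) → Prop} (h : Win D Good Y A')
    (hA : ∀ φ, A φ → BiLip D Y φ → A' φ) : Win D Good Y A := by
  obtain ⟨T, h1, h2⟩ := h
  exact ⟨T, h1, fun φ hφ hs => h2 φ (hA φ hφ hs.biLip) hs⟩

lemma Win.or {Y : Finset F} {A A' : (F → G) → Prop} (h : Win D Good Y A) (h' : Win D Good Y A') :
    Win D Good Y (fun φ => A φ ∨ A' φ) := by
  obtain ⟨T1, h1, h2⟩ := h
  obtain ⟨T2, h3, h4⟩ := h'
  refine ⟨.both T1 T2, ⟨h1, h3⟩, ?_⟩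
  rintro φ hφ ⟨-, ⟨φ1, c1, s1⟩, ⟨φ2, c2, s2⟩⟩
  rcases hφ with hφ | hφ
  · exact h2 φ hφ (s1.congr fun q hq => (c1.eq q hq).symm)
  · exact h4 φ hφ (s2.congr fun q hq => (c2.eq q hq).symm)

end Crest.Agent.R254
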