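import Crest.Agent.R254.Chain
import Crest.Agent.R254.Game

/-! Row 254: the adversary wins the online game with tame configurations. -/

set_option autoImplicit false

namespace Crest.Agent.R254

open Finset
open scoped RealInnerProductSpace

variable {F G : Type} [NormedAddCommGroup F] [InnerProductSpace ℝ F] [DecidableEq F]
  [NormedAddCommGroup G] [InnerProductSpace ℝ G]

def Good (es : F) (δ β : ℝ) (Y : Finset F) : Prop :=
  Tame 3 δ β (Y : Set F) ∧ ∀ y ∈ Y, ⟪es, y⟫ = 0 ∧ ‖y‖ ≤ 2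

omit [DecidableEq F] in
lemma Good.mono {es : F} {δ β : ℝ} (Y Y' : Finset F) (h : Good es δ β Y) (hY : Y' ⊆ Y) :
    Good es δ β Y' := ⟨h.1.mono (by exact_mod_cast hY), fun y hy => h.2 y (hY hy)⟩

def Exc (es : F) (δ β : ℝ) (a : F) (R : ℝ) (X : Finset F) : Prop :=
  (∀ x ∈ X, ⟪es, x⟫ = 0 ∧ ‖x - a‖ ≤ 2 * R) ∧ Tame 2 δ β (X : Set F)

/-- Parameters of the inner game. -/
structure Par (F G : Type) [NormedAddCommGroup F] [InnerProductSpace ℝ F]
    [NormedAddCommGroup G] where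
  e : F
  es : F
  D : ℝ
  δ : ℝ
  β : ℝ
  η : ℝ
  M : ℝ
  g : ℝ
  l : ℝ
  n : ℕ
  L : ℕ
  he : ‖e‖ = 1
  hes : ⟪es, e⟫ = 0
  hD : 0 ≤ D
  hδ0 : 0 < δ
  hδ1 : δ ≤ 1 / 2
  hβ0 : 0 < β
  hβ1 : β ≤ 1
  hη : 0 < η
  hM : 0 ≤ M
  hg : 0 < g
  hl0 : 0 < l
  hl1 : l ≤ 1 / 4
  hgl : g * l ≤ 1 / 32
  hηM : η * M ≤ 1 / 4
  hn : 0 < n
  hΔ : 2 * η * M ≤ δ * (l / n) / 2
  hL4 : 4 ≤ L
  hL : 8 ≤ L * β * η
  sep : ∀ S : F, ∃ y : Fin n → F, (∀ i, ⟪e, y i⟫ = 0 ∧ ⟪es, y i⟫ = 0 ∧ ⟪S, y i⟫ = 0 ∧ ‖y i‖ ≤ M) ∧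
    ∀ i k, i ≠ k → ∀ c : ℝ, 0 ≤ c → c ≤ 1 → 1 / 2 ≤ ‖y k - c • y i‖
  pig : ∀ x : Fin n → G, (∀ i, ‖x i‖ ^ 2 ≤ g) → ∃ i j, i < j ∧ ‖x i - x j‖ ≤ 1 / 4

namespace Par

variable (p : Par F G)

/-- Hypotheses on the current segment. -/
structure SegOk (N : ℕ) (Y : Finset F) (a : F) (R : ℝ) (S : F) (σ : ℝ) : Prop where
  hR : 0 < R
  hS : ⟪p.e, S⟫ = 0
  hS' : ⟪p.es, S⟫ = 0
  ha : ⟪p.es, a⟫ = 0
  ma : a ∈ Y
  mb : a + R • (p.e + S) ∈ Y
  slope : ‖S‖ ^ 2 + N * (16 * p.η ^ 2 * p.M ^ 2) ≤ p.δ ^ 2 / 4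
  pot : 2 * p.D ^ 2 < σ + N * (p.g * p.η ^ 2)

def A (a : F) (R : ℝ) (S : F) (σ : ℝ) (φ : F → G) : Prop :=
  σ * R ^ 2 ≤ ‖φ (a + R • (p.e + S)) - φ a‖ ^ 2

def Cl (N : ℕ) : Prop :=
  ∀ Y a R S σ, p.SegOk N Y a R S σ →
    (∀ M X, Chain p.e p.es p.δ a (a + R • (p.e + S)) M → Exc p.es p.δ p.β a R X →
      Good p.es p.δ p.β (Y ∪ M ∪ X)) →
    Win p.D (Good p.es p.δ p.β) Y (p.A a R S σ)

def Cl' (N : ℕ) : Prop :=
  ∀ Y a R S σ, p.SegOk N Y a R S σ →
    (∀ M X u, Chain p.e p.es p.δ a (a + R • (p.e + S)) M → 0 ≤ u → u ≤ R →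
      Exc p.es p.δ p.β (a + u • (p.e + S)) (R / p.L) X → Good p.es p.δ p.β (Y ∪ M ∪ X)) →
    Win p.D (Good p.es p.δ p.β) Y (p.A a R S σ)

variable {p}

omit [DecidableEq F] [InnerProductSpace ℝ G] in
lemma SegOk.normS {N : ℕ} {Y : Finset F} {a : F} {R : ℝ} {S : F} {σ : ℝ}
    (h : p.SegOk N Y a R S σ) : ‖S‖ ≤ p.δ / 2 := by
  have h1 := h.slope
  have h2 : (0 : ℝ) ≤ N * (16 * p.η ^ 2 * p.M ^ 2) := by positivity
  have := p.hδ0
  exact le_trans (le_abs_self _) (abs_le_of_sq_le_sq (by nlinarith) (by linarith))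

omit [DecidableEq F] [InnerProductSpace ℝ G] in
lemma exc_empty (a : F) {R : ℝ} : Exc p.es p.δ p.β a R ∅ :=
  ⟨by simp, by simpa using tame_empty 2⟩

omit [InnerProductSpace ℝ G] in
lemma cl_zero : p.Cl 0 := by
  intro Y a R S σ h H
  have hS := h.normS
  have hδ := p.hδ0
  have hδ1 := p.hδ1
  refine win_leaf (Good.mono _ _ (H _ _ (chain_pair p.he p.hes h.hS h.hS' h.ha (by linarith)
    h.hR.le) (exc_empty a)) (by intro x hx; simp [hx])) ?_
  intro φ hφ hb
  have h1 := (hb _ h.mb _ h.ma).2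
  rw [add_sub_cancel_left, norm_smul, Real.norm_of_nonneg h.hR.le] at h1
  have h2 : ‖p.e + S‖ ^ 2 ≤ 2 := by
    rw [norm_add_sq_real, h.hS, p.he]; nlinarith [norm_nonneg S]
  have h3 := h.pot
  unfold A at hφ
  have h4 := pow_le_pow_left₀ (norm_nonneg _) h1 2
  have hR := h.hR
  have h5 : (p.D * (R * ‖p.e + S‖)) ^ 2 ≤ 2 * p.D ^ 2 * R ^ 2 := by
    have := mul_le_mul_of_nonneg_left h2 (show 0 ≤ p.D ^ 2 * R ^ 2 by positivity)
    nlinarith
  have h6 : 2 * p.D ^ 2 * R ^ 2 < σ * R ^ 2 :=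
    mul_lt_mul_of_pos_right (by simpa using h3) (by positivity)
  linarith

omit [InnerProductSpace ℝ G] in
lemma cl'_of_cl {N : ℕ} (hc : p.Cl N) : p.Cl' N := by
  intro Y a R S σ h H
  have hS := h.normS
  have hδ := p.hδ0
  have hL : (0 : ℝ) < p.L := by have := p.hL4; positivity
  have hR := h.hR
  set x : ℕ → F := fun m => a + (m * (R / p.L)) • (p.e + S) with hx
  have hx0 : x 0 = a := by simp [hx]
  have hxL : x p.L = a + R • (p.e + S) := by
    simp only [hx]; rw [mul_div_cancel₀ _ hL.ne']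
  have hxs : ∀ m, x (m + 1) = x m + (R / p.L) • (p.e + S) := by
    intro m; simp only [hx]; push_cast; rw [add_mul, one_mul, add_smul, add_assoc]
  set Sub := (range (p.L + 1)).image x with hSub
  have hRL : 0 < R / p.L := by positivity
  have hmem : ∀ m ≤ p.L, x m ∈ Sub := fun m hm => mem_image_of_mem _ (mem_range.2 (by omega))
  have hgood : Good p.es p.δ p.β (Y ∪ Sub) := by
    refine Good.mono _ _ (H Sub ∅ 0 ?_ le_rfl hR.le (exc_empty _)) (by simp)
    have := chain_line (u0 := 0) (u1 := R) (M := Sub) (δ := p.δ) p.he p.hes h.hS h.hS' h.ha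
      (by linarith) (by simpa [hx0] using hmem 0 (by omega)) (hxL ▸ hmem _ le_rfl) (by
        intro q hq
        obtain ⟨m, hm, rfl⟩ := mem_image.1 hq
        refine ⟨m * (R / p.L), by positivity, ?_, rfl⟩
        have : (m : ℝ) ≤ p.L := by exact_mod_cast Nat.lt_succ_iff.1 (mem_range.1 hm)
        calc (m : ℝ) * (R / p.L) ≤ p.L * (R / p.L) := by gcongr
          _ = R := by field_simp)
    simpa using this
  refine win_addset (A' := p.A a R S σ) Sub Y ?_ ?_
  · refine win_step hgood (range p.L) (fun _ => ∅) (fun m => p.A (x m) (R / p.L) S σ) ?_ ?_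
    · intro m hm
      have hm := mem_range.1 hm
      rw [union_empty]
      have hm1 : (m : ℝ) + 1 ≤ p.L := by exact_mod_cast hm
      refine hc _ _ _ _ _ ⟨hRL, h.hS, h.hS', ?_, mem_union_right _ (hmem m hm.le),
        mem_union_right _ (hxs m ▸ hmem _ hm), h.slope, h.pot⟩ ?_
      · simp only [hx]
        rw [inner_add_right, inner_smul_right, inner_add_right, h.hS', p.hes, h.ha]; ring
      · intro M X hM hX
        rw [← hxs] at hM
        have c1 : Chain p.e p.es p.δ a (x m) ((range (m + 1)).image x) := by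
          have := chain_line (u0 := 0) (u1 := m * (R / p.L)) (M := (range (m + 1)).image x)
            (δ := p.δ) p.he p.hes h.hS h.hS' h.ha (by linarith)
            (by simpa [hx0] using mem_image_of_mem x (mem_range.2 (show 0 < m + 1 by omega)))
            (mem_image_of_mem x (mem_range.2 (by omega))) (by
              intro q hq
              obtain ⟨k, hk, rfl⟩ := mem_image.1 hq
              refine ⟨k * (R / p.L), by positivity, ?_, rfl⟩
              have : (k : ℝ) ≤ m := by exact_mod_cast Nat.lt_succ_iff.1 (mem_range.1 hk)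
              gcongr)
          rwa [zero_smul, add_zero] at this
        have c2 : Chain p.e p.es p.δ (x (m + 1)) (a + R • (p.e + S))
            ((Icc (m + 1) p.L).image x) :=
          chain_line (u0 := (m + 1 : ℕ) * (R / p.L)) (u1 := R) (M := (Icc (m + 1) p.L).image x)
            (δ := p.δ) p.he p.hes h.hS h.hS' h.ha (by linarith)
            (mem_image_of_mem x (mem_Icc.2 ⟨le_rfl, hm⟩))
            (hxL ▸ mem_image_of_mem x (mem_Icc.2 ⟨hm, le_rfl⟩)) (by
              intro q hq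
              obtain ⟨k, hk, rfl⟩ := mem_image.1 hq
              obtain ⟨k1, k2⟩ := mem_Icc.1 hk
              have k1' : ((m + 1 : ℕ) : ℝ) ≤ k := by exact_mod_cast k1
              have k2' : (k : ℝ) ≤ p.L := by exact_mod_cast k2
              refine ⟨k * (R / p.L), by gcongr, ?_, rfl⟩
              calc (k : ℝ) * (R / p.L) ≤ p.L * (R / p.L) := by gcongr
                _ = R := by field_simp)
        refine Good.mono _ _ (H _ X (m * (R / p.L)) ((c1.concat hM).concat c2) (by positivity) ?_ hX) ?_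
        · calc (m : ℝ) * (R / p.L) ≤ p.L * (R / p.L) := by gcongr
            _ = R := by field_simp
        · intro q hq
          simp only [mem_union, hSub, mem_image, mem_range, mem_Icc] at hq ⊢
          rcases hq with ((hq | ⟨k, hk, rfl⟩) | hq) | hq
          · tauto
          · by_cases hkm : k < m + 1
            · exact Or.inl (Or.inr (Or.inl (Or.inl ⟨k, hkm, rfl⟩)))
            · exact Or.inl (Or.inr (Or.inr ⟨k, ⟨by omega, by omega⟩, rfl⟩))
          · tauto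
          · tauto
    · intro φ hφ _
      obtain ⟨m, hm, hmax⟩ := exists_max_image (range p.L) (fun m => ‖φ (x (m + 1)) - φ (x m)‖)
        ⟨0, mem_range.2 (by have := p.hL4; omega)⟩
      refine ⟨m, hm, fun φ' he => ?_⟩
      have hm' := mem_range.1 hm
      unfold A at hφ ⊢
      rw [← hxs, he _ (mem_union_right _ (hmem _ hm')), he _ (mem_union_right _ (hmem _ hm'.le))]
      have ht : φ (a + R • (p.e + S)) - φ a = ∑ k ∈ range p.L, (φ (x (k + 1)) - φ (x k)) := by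
        rw [sum_range_sub (fun k => φ (x k)), hxL, hx0]
      have h1 : ‖φ (a + R • (p.e + S)) - φ a‖ ≤ p.L * ‖φ (x (m + 1)) - φ (x m)‖ := by
        rw [ht]
        refine (norm_sum_le _ _).trans ?_
        simpa using sum_le_card_nsmul _ _ _ hmax
      have h2 := hφ.trans (pow_le_pow_left₀ (norm_nonneg _) h1 2)
      rw [div_pow, ← mul_div_assoc, div_le_iff₀ (by positivity)]
      linarith [mul_pow (p.L : ℝ) ‖φ (x (m + 1)) - φ (x m)‖ 2]
  · intro φ φ' hφ he
    unfold A at hφ ⊢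
    rw [he _ h.ma, he _ h.mb]; exact hφ

end Par

end Crest.Agent.R254
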