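import Crest.Agent.R254.Sched

/-! Row 254: the substitution construction. -/

set_option autoImplicit false

namespace Crest.Agent.R254

open Finset
open scoped RealInnerProductSpace

variable {F F' G : Type} [NormedAddCommGroup F] [InnerProductSpace ℝ F] [DecidableEq F]
  [NormedAddCommGroup F'] [InnerProductSpace ℝ F'] [NormedAddCommGroup G] [InnerProductSpace ℝ G]

structure Blk (δ β t0 t1 : ℝ) (A0 A1 : Set F') (K : Set (ℝ × F')) : Prop where
  le : t0 ≤ t1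
  cpt : IsCompact K
  rng : ∀ p ∈ K, t0 ≤ p.1 ∧ p.1 ≤ t1
  ent : ∀ z, (t0, z) ∈ K ↔ z ∈ A0
  ext : ∀ z, (t1, z) ∈ K ↔ z ∈ A1
  slide : ∀ p ∈ K, ∀ s, t0 ≤ s → s ≤ t1 → ∃ z, (s, z) ∈ K ∧ ‖p.2 - z‖ ≤ δ * |p.1 - s|
  tame : ∀ s, Tame 4 δ β {z | (s, z) ∈ K}

variable {δ β ε D Kc Λ : ℝ}

lemma Blk.glue {t0 t1 t2 : ℝ} {A0 A1 A2 : Set F'} {K1 K2 : Set (ℝ × F')}
    (h1 : Blk δ β t0 t1 A0 A1 K1) (h2 : Blk δ β t1 t2 A1 A2 K2) :
    Blk δ β t0 t2 A0 A2 (K1 ∪ K2) := by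
  have m21 : ∀ s z, (s, z) ∈ K2 → s ≤ t1 → (s, z) ∈ K1 := by
    intro s z h hs
    obtain rfl : s = t1 := le_antisymm hs (h2.rng _ h).1
    exact (h1.ext z).2 ((h2.ent z).1 h)
  have m12 : ∀ s z, (s, z) ∈ K1 → t1 ≤ s → (s, z) ∈ K2 := by
    intro s z h hs
    obtain rfl : s = t1 := le_antisymm (h1.rng _ h).2 hs
    exact (h2.ent z).2 ((h1.ext z).1 h)
  refine ⟨h1.le.trans h2.le, h1.cpt.union h2.cpt, ?_, fun z => ?_, fun z => ?_, ?_, fun s => ?_⟩
  · rintro p (h | h)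
    · exact ⟨(h1.rng p h).1, (h1.rng p h).2.trans h2.le⟩
    · exact ⟨h1.le.trans (h2.rng p h).1, (h2.rng p h).2⟩
  · rw [← h1.ent]
    exact ⟨fun h => h.elim id fun h => m21 _ _ h h1.le, Or.inl⟩
  · rw [← h2.ext]
    exact ⟨fun h => h.elim (fun h => m12 _ _ h h2.le) id, Or.inr⟩
  · rintro p (h | h) s s0 s1
    · rcases le_total s t1 with hs | hs
      · obtain ⟨z, hz, hd⟩ := h1.slide p h s s0 hs
        exact ⟨z, Or.inl hz, hd⟩
      · obtain ⟨z, hz, hd⟩ := h1.slide p h t1 h1.le le_rfl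
        obtain ⟨z', hz', hd'⟩ := h2.slide _ (m12 _ _ hz le_rfl) s hs s1
        refine ⟨z', Or.inr hz', ?_⟩
        have := (h1.rng p h).2
        simp only at hd'
        rw [abs_of_nonpos (by linarith)] at hd hd' ⊢
        linarith [norm_sub_le_norm_sub_add_norm_sub p.2 z z']
    · rcases le_total t1 s with hs | hs
      · obtain ⟨z, hz, hd⟩ := h2.slide p h s hs s1
        exact ⟨z, Or.inr hz, hd⟩
      · obtain ⟨z, hz, hd⟩ := h2.slide p h t1 le_rfl h2.le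
        obtain ⟨z', hz', hd'⟩ := h1.slide _ (m21 _ _ hz le_rfl) s s0 hs
        refine ⟨z', Or.inl hz', ?_⟩
        have := (h2.rng p h).1
        simp only at hd'
        rw [abs_of_nonneg (by linarith)] at hd hd' ⊢
        linarith [norm_sub_le_norm_sub_add_norm_sub p.2 z z']
  · rcases le_total s t1 with hs | hs
    · exact (h1.tame s).mono fun z hz => hz.elim id fun h => m21 _ _ h hs
    · exact (h2.tame s).mono fun z hz => hz.elim (fun h => m12 _ _ h hs) id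

def Emb (D : ℝ) (K : Set (ℝ × F')) (f : ℝ × F' → G) : Prop :=
  (∀ s z z', (s, z) ∈ K → (s, z') ∈ K → ‖z - z'‖ ≤ ‖f (s, z) - f (s, z')‖) ∧
    ∀ p ∈ K, ∀ q ∈ K, ‖f p - f q‖ ≤ D * (|p.1 - q.1| + ‖p.2 - q.2‖)

omit [InnerProductSpace ℝ F'] [InnerProductSpace ℝ G] in
lemma Emb.mono {K K' : Set (ℝ × F')} {f : ℝ × F' → G} (h : Emb D K f) (hK : K' ⊆ K) : Emb D K' f :=
  ⟨fun s z z' a b => h.1 s z z' (hK a) (hK b), fun p a q b => h.2 p (hK a) q (hK b)⟩

noncomputable def Pot (Kc : ℝ) (f : ℝ × F' → G) (t : ℝ) (y : F') (l : ℝ) (S : F') : ℝ :=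
  ‖l⁻¹ • (f (t + l, y + l • S) - f (t, y))‖ ^ 2 - Kc * ‖S‖ ^ 2

structure Seg (G : Type) [NormedAddCommGroup G] [InnerProductSpace ℝ G] (δ β ε D Kc : ℝ) (N : ℕ)
    (t : ℝ) (y : F') (l : ℝ) (S : F') (K : Set (ℝ × F')) : Prop where
  blk : Blk δ β t (t + l) {y} {y + l • S} K
  lens : ∀ p ∈ K, ‖p.2 - y - (p.1 - t) • S‖ ≤ ε * 24 * min (p.1 - t) (t + l - p.1)
  ne : ∀ f : ℝ × F' → G, Emb D K f → 0 ≤ Pot Kc f t y l S → Pot Kc f t y l S + N * ε ^ 2 ≤ 2 * D ^ 2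

def Build (F' G : Type) [NormedAddCommGroup F'] [InnerProductSpace ℝ F'] [NormedAddCommGroup G]
    [InnerProductSpace ℝ G] (δ β ε D Kc : ℝ) (N : ℕ) : Prop :=
  ∀ (t : ℝ) (y : F') (l : ℝ) (S : F'), 0 < l → ‖S‖ ≤ δ → ∃ K, Seg G δ β ε D Kc N t y l S K

lemma seg_straight (hβ : 0 ≤ β) (hε : 0 ≤ ε) (hD : 0 < D) (hδ : 0 < δ)
    (hK : 2 * D ^ 2 + 16 * D ^ 2 / δ ^ 2 ≤ Kc) {N : ℕ} (t : ℝ) (y : F') {l : ℝ} {S : F'}
    (hl : 0 < l) (hS : ‖S‖ ≤ δ) (hN : N = 0 ∨ δ / 2 ≤ ‖S‖) : ∃ K, Seg G δ β ε D Kc N t y l S K := by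
  set K := (fun u : ℝ => (t + u, y + u • S)) '' Set.Icc 0 l with hKd
  have mem : ∀ s z, (s, z) ∈ K ↔ t ≤ s ∧ s ≤ t + l ∧ z = y + (s - t) • S := by
    intro s z
    constructor
    · rintro ⟨u, ⟨u0, u1⟩, h⟩
      obtain ⟨rfl, rfl⟩ := Prod.mk.inj h
      exact ⟨by linarith, by linarith, by simp⟩
    · rintro ⟨h0, h1, rfl⟩
      exact ⟨s - t, ⟨by linarith, by linarith⟩, by simp⟩
  refine ⟨K, ⟨by linarith, isCompact_Icc.image (by fun_prop), ?_, ?_, ?_, ?_, ?_⟩, ?_, ?_⟩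
  · rintro ⟨s, z⟩ h; exact ⟨((mem s z).1 h).1, ((mem s z).1 h).2.1⟩
  · intro z; rw [mem]; simp [hl.le]
  · intro z; rw [mem]; simp [hl.le]
  · rintro ⟨s, z⟩ h s' s0 s1
    obtain ⟨-, -, rfl⟩ := (mem s z).1 h
    refine ⟨_, (mem _ _).2 ⟨s0, s1, rfl⟩, ?_⟩
    have : y + (s - t) • S - (y + (s' - t) • S) = (s - s') • S := by module
    simp only [this, norm_smul, Real.norm_eq_abs]
    nlinarith [abs_nonneg (s - s')]
  · intro s
    exact ((tame_singleton hβ (y + (s - t) • S)).mono_k (by norm_num)).mono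
      fun z hz => ((mem s z).1 hz).2.2
  · rintro ⟨s, z⟩ h
    obtain ⟨h0, h1, rfl⟩ := (mem s z).1 h
    have : 0 ≤ min (s - t) (t + l - s) := le_min (by linarith) (by linarith)
    simp only [add_sub_cancel_left, sub_self, norm_zero]; positivity
  · intro f hf h0
    have h1 := hf.2 _ ((mem (t + l) (y + l • S)).2 ⟨by linarith, le_rfl, by simp⟩) _
      ((mem t y).2 ⟨le_rfl, by linarith, by simp⟩)
    simp only [add_sub_cancel_left, norm_smul, Real.norm_eq_abs, abs_of_pos hl] at h1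
    have h2 : ‖l⁻¹ • (f (t + l, y + l • S) - f (t, y))‖ ≤ D * (1 + ‖S‖) := by
      rw [norm_smul, norm_inv, Real.norm_of_nonneg hl.le, inv_mul_le_iff₀ hl]; linarith
    have h3 := pow_le_pow_left₀ (norm_nonneg _) h2 2
    have h4 : (D * (1 + ‖S‖)) ^ 2 ≤ 2 * D ^ 2 + 2 * D ^ 2 * ‖S‖ ^ 2 := by
      nlinarith [mul_nonneg (sq_nonneg D) (sq_nonneg (1 - ‖S‖))]
    have h5 := mul_le_mul_of_nonneg_right hK (sq_nonneg ‖S‖)
    have h6 : 0 ≤ 16 * D ^ 2 / δ ^ 2 * ‖S‖ ^ 2 := by positivity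
    unfold Pot at *
    rcases hN with rfl | hN
    · simp only [Nat.cast_zero, zero_mul, add_zero]; linarith
    · have h7 : 4 * D ^ 2 ≤ 16 * D ^ 2 / δ ^ 2 * ‖S‖ ^ 2 := by
        have := pow_le_pow_left₀ (by positivity) hN 2
        rw [div_mul_eq_mul_div, le_div_iff₀ (by positivity)]
        nlinarith [mul_le_mul_of_nonneg_left this (sq_nonneg D)]
      have : 0 < D ^ 2 := by positivity
      linarith

section Phase

variable (ε) (t : ℝ) (y : F') (l : ℝ) (S : F') (Q : F →ₗᵢ[ℝ] F')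

/-- Placement of template points. -/
def gp (τ : ℝ) (z : F) : F' := (y + (l * τ) • S) + (ε * l) • Q z

/-- The rescaled state of the embedding at template time `τ`. -/
noncomputable def stt (f : ℝ × F' → G) (V f0 : G) (τ : ℝ) : St F G :=
  (fun z => (ε * l)⁻¹ • (f (t + l * τ, gp ε y l S Q τ z) - f0 - (l * τ) • V),
   fun z => 2 * ⟪V, (ε * l)⁻¹ • (f (t + l * τ, gp ε y l S Q τ z) - f0 - (l * τ) • V)⟫ / ε)

variable {ε y l S Q}

lemma phase {N : ℕ} (hB : Build F' G δ β ε D Kc N) (hβ0 : 0 ≤ β) (hβ1 : β ≤ 1) (hε : 0 < ε)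
    (hl : 0 < l) (hΛ : 96 ≤ β * Λ) (hQ : ∀ z, ⟪S, Q z⟫ = 0) (hS : ‖S‖ ≤ δ / 2) {m : ℝ}
    (hm : ε * m ≤ δ / 2) {ph : Ph F} (hph : PhOk Λ δ (β / 4) ph)
    (hsl : ∀ e ∈ ph.2, ‖e.2 - e.1‖ ≤ m * ph.1) (τ : ℝ) :
    ∃ K, Blk δ β (t + l * τ) (t + l * (τ + ph.1)) (gp ε y l S Q τ '' ↑(ph.2.image Prod.fst))
      (gp ε y l S Q (τ + ph.1) '' ↑(ph.2.image Prod.snd)) K ∧
      (∀ p ∈ K, ∃ e ∈ ph.2, ∃ u, 0 ≤ u ∧ u ≤ ph.1 ∧
        ‖p.2 - y - (p.1 - t) • S - (ε * l) • Q (pt ph.1 e u)‖ ≤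
          ε * 24 * min (p.1 - (t + l * τ)) (t + l * (τ + ph.1) - p.1)) ∧
      ∀ (f : ℝ × F' → G) (V f0 : G), Emb D K f → 0 ≤ ‖V‖ ^ 2 - Kc * ‖S‖ ^ 2 →
        2 * D ^ 2 < ‖V‖ ^ 2 - Kc * ‖S‖ ^ 2 + (N + 1) * ε ^ 2 →
        Stp Kc D ph (stt ε t y l S Q f V f0 τ) (stt ε t y l S Q f V f0 (τ + ph.1)) := by
  obtain ⟨a, Ed⟩ := ph
  have ha : 0 < a := hph.pos
  simp only at hsl ⊢
  set Se : F × F → F' := fun e => S + (ε / a) • Q (e.2 - e.1) with hSe
  have hex : ∀ e ∈ Ed, ∃ K, Seg G δ β ε D Kc N (t + l * τ) (gp ε y l S Q τ e.1) (l * a) (Se e) K := by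
    intro e he
    refine hB _ _ _ _ (by positivity) ((norm_add_le _ _).trans ?_)
    rw [norm_smul, Q.norm_map, Real.norm_of_nonneg (by positivity)]
    have : ε / a * ‖e.2 - e.1‖ ≤ ε / a * (m * a) := by gcongr; exact hsl e he
    rw [show ε / a * (m * a) = ε * m by field_simp] at this
    linarith
  choose! K hK using hex
  have et : t + l * τ + l * a = t + l * (τ + a) := by ring
  have ey : ∀ e : F × F, gp ε y l S Q τ e.1 + (l * a) • Se e = gp ε y l S Q (τ + a) e.2 := by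
    intro e
    simp only [gp, hSe, map_sub, smul_add, smul_smul]
    rw [show l * a * (ε / a) = ε * l by field_simp]; module
  have ec : ∀ (e : F × F) (s : ℝ) (z : F'), z - gp ε y l S Q τ e.1 - (s - (t + l * τ)) • Se e =
      z - y - (s - t) • S - (ε * l) • Q (pt a e ((s - (t + l * τ)) / l)) := by
    intro e s z
    simp only [gp, hSe, pt, map_add, map_smul, smul_add, smul_smul]
    rw [show ε * l * ((s - (t + l * τ)) / l / a) = (s - (t + l * τ)) * (ε / a) by field_simp]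
    module
  have hb := fun e he => (hK e he).blk
  simp only [et, ey] at hb
  have hlens := fun e he => (hK e he).lens
  simp only [et, ec] at hlens
  have hu : ∀ s, t + l * τ ≤ s → s ≤ t + l * (τ + a) →
      0 ≤ (s - (t + l * τ)) / l ∧ (s - (t + l * τ)) / l ≤ a := fun s h0 h1 =>
    ⟨div_nonneg (by linarith) hl.le, by rw [div_le_iff₀ hl]; linarith⟩
  refine ⟨⋃ e ∈ Ed, K e, ⟨by nlinarith, Ed.isCompact_biUnion fun e he => (hb e he).cpt, ?_, ?_, ?_,
    ?_, ?_⟩, ?_, ?_⟩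
  · simp only [Set.mem_iUnion]
    rintro p ⟨e, he, hp⟩; exact (hb e he).rng p hp
  · intro z
    simp only [Set.mem_iUnion, coe_image, Set.image_image, Set.mem_image, mem_coe]
    exact ⟨fun ⟨e, he, h⟩ => ⟨e, he, (((hb e he).ent z).1 h).symm⟩,
      fun ⟨e, he, h⟩ => ⟨e, he, ((hb e he).ent z).2 h.symm⟩⟩
  · intro z
    simp only [Set.mem_iUnion, coe_image, Set.image_image, Set.mem_image, mem_coe]
    exact ⟨fun ⟨e, he, h⟩ => ⟨e, he, (((hb e he).ext z).1 h).symm⟩,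
      fun ⟨e, he, h⟩ => ⟨e, he, ((hb e he).ext z).2 h.symm⟩⟩
  · simp only [Set.mem_iUnion]
    rintro p ⟨e, he, hp⟩ s s0 s1
    obtain ⟨z, hz, hd⟩ := (hb e he).slide p hp s s0 s1
    exact ⟨z, ⟨e, he, hz⟩, hd⟩
  · intro s
    by_cases hs : t + l * τ ≤ s ∧ s ≤ t + l * (τ + a)
    swap
    · refine (tame_empty 4).mono fun z hz => ?_
      simp only [Set.mem_iUnion, Set.mem_ofPred_eq] at hz
      obtain ⟨e, he, hz⟩ := hz
      exact hs ((hb e he).rng _ hz)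
    obtain ⟨u0, u1⟩ := hu s hs.1 hs.2
    set u := (s - (t + l * τ)) / l with hud
    have hmin : min (s - (t + l * τ)) (t + l * (τ + a) - s) = l * min u (a - u) := by
      rw [mul_min_of_nonneg _ _ hl.le]
      congr 1 <;> rw [hud] <;> field_simp
      ring
    have hm0 : 0 ≤ min u (a - u) := le_min u0 (by linarith)
    refine (tame_cluster (↑Ed) (fun e => (y + (s - t) • S) + (ε * l) • Q (pt a e u))
      (fun e => {z | (s, z) ∈ K e}) (ρ := ε * 24 * (l * min u (a - u))) (by positivity) hβ0 hβ1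
      ?_ ?_ (fun e he => (hb e he).tame s) ?_).mono ?_
    · intro e he z hz
      have := hlens e he _ hz
      simp only [hmin] at this
      rwa [← sub_sub, ← sub_sub]
    · intro e he e' he' hne
      have h1 := hph.iso e he e' he' hne u u0 u1
      simp only at h1
      rw [add_sub_add_left_eq_sub, ← smul_sub, ← map_sub, norm_smul, Q.norm_map,
        Real.norm_of_nonneg (by positivity)]
      have h2 := mul_le_mul_of_nonneg_left h1 (show 0 ≤ β * (ε * l) by positivity)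
      have h3 := mul_le_mul_of_nonneg_right hΛ (show 0 ≤ ε * l * min u (a - u) by positivity)
      linarith
    · have := (hph.tame u).image Q (y + (s - t) • S) (a := ε * l) (by positivity)
      rwa [Set.image_image] at this
    · intro z hz
      simpa using hz
  · simp only [Set.mem_iUnion]
    rintro p ⟨e, he, hp⟩
    obtain ⟨u0, u1⟩ := hu p.1 ((hb e he).rng p hp).1 ((hb e he).rng p hp).2
    exact ⟨e, he, _, u0, u1, hlens e he p hp⟩
  · intro f V f0 hf h0 h1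
    have hsub : ∀ e ∈ Ed, K e ⊆ ⋃ e ∈ Ed, K e := fun e he => Set.subset_biUnion_of_mem (u := K) he
    have hel : 0 < ε * l := by positivity
    refine ⟨fun e he => ?_, ?_⟩
    · have h2 := (hK e he).ne f (hf.mono (hsub e he))
      have h3 : Pot Kc f (t + l * τ) (gp ε y l S Q τ e.1) (l * a) (Se e) ≤
          ‖V‖ ^ 2 - Kc * ‖S‖ ^ 2 + ε ^ 2 := by
        by_contra hc
        have := h2 (by nlinarith)
        linarith
      simp only [Pot, et, ey] at h3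
      simp only [stt]
      set f1 := f (t + l * (τ + a), gp ε y l S Q (τ + a) e.2)
      set f2 := f (t + l * τ, gp ε y l S Q τ e.1)
      set ψ1 := (ε * l)⁻¹ • (f1 - f0 - (l * (τ + a)) • V) with hψ1
      set ψ2 := (ε * l)⁻¹ • (f2 - f0 - (l * τ) • V) with hψ2
      have e1 : (l * a)⁻¹ • (f1 - f2) = V + (ε / a) • (ψ1 - ψ2) := by
        rw [hψ1, hψ2, ← smul_sub, smul_smul, show ε / a * (ε * l)⁻¹ = (l * a)⁻¹ by field_simp]
        have : f1 - f0 - (l * (τ + a)) • V - (f2 - f0 - (l * τ) • V) = f1 - f2 - (l * a) • V := by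
          module
        rw [this, smul_sub (l * a)⁻¹ (f1 - f2), smul_smul, inv_mul_cancel₀ (by positivity)]
        simp
      have e2 : ‖Se e‖ ^ 2 = ‖S‖ ^ 2 + (ε / a) ^ 2 * ‖e.2 - e.1‖ ^ 2 := by
        simp only [hSe]
        rw [norm_add_sq_real, inner_smul_right, hQ, norm_smul, Q.norm_map, mul_pow,
          Real.norm_eq_abs, sq_abs]; ring
      rw [e1, e2, norm_add_sq_real, inner_smul_right, norm_smul, mul_pow, Real.norm_eq_abs, sq_abs,
        inner_sub_right] at h3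
      have h4 : 2 * (ε / a * (⟪V, ψ1⟫ - ⟪V, ψ2⟫)) + (ε / a) ^ 2 * ‖ψ1 - ψ2‖ ^ 2 ≤
          Kc * ((ε / a) ^ 2 * ‖e.2 - e.1‖ ^ 2) + ε ^ 2 := by linarith
      have h5 := mul_le_mul_of_nonneg_left h4 (show 0 ≤ a / ε ^ 2 by positivity)
      refine le_trans (le_of_eq ?_) (h5.trans (le_of_eq ?_))
      · field_simp; ring
      · field_simp
    · intro p hp q hq
      have mm : ∀ p ∈ Ed.image Prod.snd, (t + l * (τ + a), gp ε y l S Q (τ + a) p) ∈ ⋃ e ∈ Ed, K e := by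
        intro p hp
        obtain ⟨e, he, rfl⟩ := mem_image.1 hp
        exact hsub e he (((hb e he).ext _).2 rfl)
      have a1 := hf.1 _ _ _ (mm p hp) (mm q hq)
      have a2 := hf.2 _ (mm p hp) _ (mm q hq)
      have eg : ‖gp ε y l S Q (τ + a) p - gp ε y l S Q (τ + a) q‖ = ε * l * ‖p - q‖ := by
        simp only [gp]
        rw [add_sub_add_left_eq_sub, ← smul_sub, ← map_sub, norm_smul, Q.norm_map,
          Real.norm_of_nonneg hel.le]
      simp only [sub_self, abs_zero, zero_add, eg] at a1 a2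
      simp only [stt]
      rw [← smul_sub, sub_sub_sub_cancel_right, sub_sub_sub_cancel_right, norm_smul, norm_inv,
        Real.norm_of_nonneg hel.le, le_inv_mul_iff₀ hel, inv_mul_le_iff₀ hel]
      exact ⟨a1, by linarith⟩

end Phase

end Crest.Agent.R254
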