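import Crest.Agent.R254.Inner

/-! Row 254: simulating a strategy tree by a time schedule. -/

set_option autoImplicit false

namespace Crest.Agent.R254

open Finset
open scoped RealInnerProductSpace

variable {F G : Type} [NormedAddCommGroup F] [InnerProductSpace ℝ F] [DecidableEq F]
  [NormedAddCommGroup G]

abbrev Ph (F : Type) := ℝ × Finset (F × F)
abbrev St (F G : Type) := (F → G) × (F → ℝ)

noncomputable def pt (l : ℝ) (e : F × F) (u : ℝ) : F := e.1 + (u / l) • (e.2 - e.1)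

structure PhOk (Λ δ β : ℝ) (ph : Ph F) : Prop where
  pos : 0 < ph.1
  iso : ∀ e ∈ ph.2, ∀ e' ∈ ph.2, e ≠ e' → ∀ u, 0 ≤ u → u ≤ ph.1 →
    Λ * min u (ph.1 - u) ≤ ‖pt ph.1 e u - pt ph.1 e' u‖
  tame : ∀ u, Tame 4 δ β ((fun e => pt ph.1 e u) '' (ph.2 : Set (F × F)))
  bd : ∀ e ∈ ph.2, ‖e.1‖ ≤ 3 ∧ ‖e.2‖ ≤ 3

def Ok (Λ δ β : ℝ) : List (Ph F) → Finset F → Finset F → Prop
  | [], Y, Y' => Y = Y'
  | ph :: S, Y, Y' => PhOk Λ δ β ph ∧ ph.2.image Prod.fst = Y ∧ Ok Λ δ β S (ph.2.image Prod.snd) Y'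

def Stp (K D : ℝ) (ph : Ph F) (x x' : St F G) : Prop :=
  (∀ e ∈ ph.2, ‖x'.1 e.2 - x.1 e.1‖ ^ 2 / ph.1 + (x'.2 e.2 - x.2 e.1) ≤
    K * ‖e.2 - e.1‖ ^ 2 / ph.1 + ph.1) ∧ BiLip D (ph.2.image Prod.snd) x'.1

def Rel (K D : ℝ) : List (Ph F) → St F G → St F G → Prop
  | [], x, x' => x = x'
  | ph :: S, x, x' => ∃ x1, Stp K D ph x x1 ∧ Rel K D S x1 x'

def dur (S : List (Ph F)) : ℝ := (S.map Prod.fst).sum

def Stat (S : List (Ph F)) (Y : Finset F) : Prop := ∀ ph ∈ S, ∀ q ∈ Y, (q, q) ∈ ph.2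

variable {Λ δ β K D κ : ℝ}

omit [NormedAddCommGroup F] [InnerProductSpace ℝ F] [DecidableEq F] in
@[simp] lemma dur_append (S S' : List (Ph F)) : dur (S ++ S') = dur S + dur S' := by simp [dur]
omit [NormedAddCommGroup F] [InnerProductSpace ℝ F] [DecidableEq F] in
@[simp] lemma dur_cons (ph : Ph F) (S : List (Ph F)) : dur (ph :: S) = ph.1 + dur S := by simp [dur]
omit [NormedAddCommGroup F] [InnerProductSpace ℝ F] [DecidableEq F] in
@[simp] lemma dur_nil : dur ([] : List (Ph F)) = 0 := by simp [dur]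

lemma Ok.append : ∀ {S S' : List (Ph F)} {Y Y' Y'' : Finset F}, Ok Λ δ β S Y Y' →
    Ok Λ δ β S' Y' Y'' → Ok Λ δ β (S ++ S') Y Y''
  | [], _, _, _, _, h, h' => by obtain rfl : _ = _ := h; exact h'
  | _ :: _, _, _, _, _, h, h' => ⟨h.1, h.2.1, Ok.append h.2.2 h'⟩

lemma Ok.phOk : ∀ {S : List (Ph F)} {Y Y' : Finset F}, Ok Λ δ β S Y Y' → ∀ ph ∈ S, PhOk Λ δ β ph
  | [], _, _, _ => by simp
  | _ :: _, _, _, h => by
    intro ph hph
    rcases List.mem_cons.1 hph with rfl | hph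
    exacts [h.1, h.2.2.phOk ph hph]

lemma Ok.dur_nonneg : ∀ {S : List (Ph F)} {Y Y' : Finset F}, Ok Λ δ β S Y Y' → 0 ≤ dur S
  | [], _, _, _ => by simp
  | _ :: _, _, _, h => by rw [dur_cons]; exact add_nonneg h.1.pos.le h.2.2.dur_nonneg

omit [InnerProductSpace ℝ F] in
lemma rel_append : ∀ {S S' : List (Ph F)} {x x' : St F G}, Rel K D (S ++ S') x x' →
    ∃ x1, Rel K D S x x1 ∧ Rel K D S' x1 x'
  | [], _, x, _, h => ⟨x, rfl, h⟩
  | _ :: _, _, _, _, ⟨x1, h1, h2⟩ => by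
    obtain ⟨x2, h3, h4⟩ := rel_append h2
    exact ⟨x2, ⟨x1, h1, h3⟩, h4⟩

lemma Rel.biLip : ∀ {S : List (Ph F)} {Y Y' : Finset F} {x x' : St F G}, Ok Λ δ β S Y Y' →
    Rel K D S x x' → BiLip D Y x.1 → BiLip D Y' x'.1
  | [], _, _, _, _, h, h', hb => by obtain rfl : _ = _ := h; obtain rfl : _ = _ := h'; exact hb
  | _ :: _, _, _, _, _, h, ⟨_, h1, h2⟩, _ => Rel.biLip h.2.2 h2 h1.2

/-- Energy bound along a static curve. -/
lemma Rel.static {q : F} : ∀ {S : List (Ph F)} {Y Y' Z : Finset F} {x x' : St F G},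
    Ok Λ δ β S Y Y' → Stat S Z → q ∈ Z → Rel K D S x x' →
    0 ≤ x.2 q - x'.2 q + dur S ∧ ‖x'.1 q - x.1 q‖ ^ 2 ≤ dur S * (x.2 q - x'.2 q + dur S)
  | [], _, _, _, _, _, _, _, _, h => by obtain rfl : _ = _ := h; simp
  | ph :: S, _, _, Z, x, x', h, hs, hq, ⟨x1, h1, h2⟩ => by
    obtain ⟨i1, i2⟩ := Rel.static h.2.2 (fun p hp => hs p (List.mem_cons_of_mem _ hp)) hq h2
    have h3 := h1.1 _ (hs ph List.mem_cons_self q hq)
    have hl := h.1.pos
    have hd := h.2.2.dur_nonneg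
    simp only [sub_self, norm_zero, ne_eq, OfNat.ofNat_ne_zero, not_false_eq_true, zero_pow,
      mul_zero, zero_div, zero_add] at h3
    have h4 : ‖x1.1 q - x.1 q‖ ^ 2 ≤ ph.1 * (x.2 q - x1.2 q + ph.1) := by
      rw [mul_comm, ← div_le_iff₀ hl]; linarith
    have h5 : 0 ≤ x.2 q - x1.2 q + ph.1 := by
      have : 0 ≤ ‖x1.1 q - x.1 q‖ ^ 2 / ph.1 := by positivity
      linarith
    rw [dur_cons]
    refine ⟨by linarith, ?_⟩
    have h6 := norm_sub_le_norm_sub_add_norm_sub (x'.1 q) (x1.1 q) (x.1 q)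
    set a := ‖x1.1 q - x.1 q‖
    set b := ‖x'.1 q - x1.1 q‖
    set E1 := x.2 q - x1.2 q + ph.1
    set E2 := x1.2 q - x'.2 q + dur S
    have e : x.2 q - x'.2 q + (ph.1 + dur S) = E1 + E2 := by simp only [E1, E2]; ring
    rw [e]
    have h7 : 2 * (a * b) ≤ ph.1 * E2 + dur S * E1 := by
      refine le_trans (le_abs_self _) (abs_le_of_sq_le_sq ?_ (by positivity))
      have := mul_le_mul h4 i2 (by positivity) (by positivity)
      nlinarith [sq_nonneg (ph.1 * E2 - dur S * E1)]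
    have := pow_le_pow_left₀ (norm_nonneg _) h6 2
    nlinarith

def mv (Y : Finset F) (a b : F) : Finset (F × F) := insert (a, b) (Y.image fun q => (q, q))

omit [NormedAddCommGroup F] [InnerProductSpace ℝ F] in
lemma mv_fst (Y : Finset F) (a b : F) : (mv Y a b).image Prod.fst = insert a Y := by
  simp [mv, image_image, Function.comp_def]
omit [NormedAddCommGroup F] [InnerProductSpace ℝ F] in
lemma mv_snd (Y : Finset F) (a b : F) : (mv Y a b).image Prod.snd = insert b Y := by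
  simp [mv, image_image, Function.comp_def]

lemma phOk_mv {es : F} (hes : ‖es‖ = 1) {Y : Finset F} (hY : Good es δ β Y) (hβ : 0 ≤ β)
    (hΛ : 0 ≤ Λ) {l : ℝ} (hl : 0 < l) (hΛl : Λ * l ≤ 1)
    (hsep : ∀ q ∈ Y, ∀ q' ∈ Y, q ≠ q' → Λ * l ≤ ‖q - q'‖) {a b : F} (ha : ‖a‖ ≤ 3) (hb : ‖b‖ ≤ 3)
    (hab : (⟪es, a⟫ = 0 ∧ ⟪es, b⟫ = 1) ∨ (⟪es, a⟫ = 1 ∧ ⟪es, b⟫ = 0)) :
    PhOk Λ δ β (l, mv Y a b) := by
  have hst : ∀ (q : F) u, pt l (q, q) u = q := by intro q u; simp [pt]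
  have key : ∀ q ∈ Y, ∀ u, 0 ≤ u → u ≤ l → Λ * min u (l - u) ≤ ‖pt l (a, b) u - q‖ := by
    intro q hq u u0 u1
    have h1 := abs_real_inner_le_norm es (pt l (a, b) u - q)
    rw [hes, one_mul, inner_sub_right, (hY.2 q hq).1, sub_zero] at h1
    refine le_trans ?_ ((le_abs_self _).trans h1)
    have h2 : Λ ≤ 1 / l := by rw [le_div_iff₀ hl]; exact hΛl
    have h3 : 0 ≤ min u (l - u) := le_min u0 (by linarith)
    refine (mul_le_mul_of_nonneg_right h2 h3).trans ?_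
    simp only [pt, inner_add_right, inner_smul_right, inner_sub_right]
    rw [div_mul_eq_mul_div, one_mul, div_le_iff₀ hl]
    rcases hab with ⟨h, h'⟩ | ⟨h, h'⟩ <;> rw [h, h']
    · refine (min_le_left _ _).trans (le_of_eq ?_); field_simp; ring
    · refine (min_le_right _ _).trans (le_of_eq ?_); field_simp; ring
  refine ⟨hl, ?_, fun u => ?_, ?_⟩
  · intro e he e' he' hne u u0 u1
    simp only [mv, mem_insert, mem_image] at he he'
    rcases he with rfl | ⟨q, hq, rfl⟩ <;> rcases he' with rfl | ⟨q', hq', rfl⟩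
    · exact absurd rfl hne
    · rw [hst]; exact key q' hq' u u0 u1
    · rw [hst, norm_sub_rev]; exact key q hq u u0 u1
    · rw [hst, hst]
      refine le_trans ?_ (hsep q hq q' hq' (by rintro rfl; exact hne rfl))
      exact mul_le_mul_of_nonneg_left ((min_le_left _ _).trans u1) hΛ
  · refine (hY.1.union (tame_singleton hβ (pt l (a, b) u))).mono ?_
    rintro _ ⟨e, he, rfl⟩
    simp only [mv, coe_insert, coe_image, Set.mem_insert_iff, Set.mem_image, mem_coe] at he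
    rcases he with rfl | ⟨q, hq, rfl⟩
    · exact Or.inr rfl
    · exact Or.inl (by simpa [hst] using hq)
  · intro e he
    simp only [mv, mem_insert, mem_image] at he
    rcases he with rfl | ⟨q, hq, rfl⟩
    · exact ⟨ha, hb⟩
    · have := (hY.2 q hq).2
      constructor <;> simp only <;> linarith

omit [InnerProductSpace ℝ F] in
lemma rel_mv (hK : 0 ≤ K) {Y : Finset F} {a b c : F} {l : ℝ} (hl : 0 < l) (h1 : ‖b - a‖ ≤ 3)
    (h2 : ‖c - b‖ ≤ 3) {x x' : St F G} (h : Rel K D [(l, mv Y a b), (l, mv Y b c)] x x') :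
    x'.2 c ≤ x.2 a + 2 * (K * 9 / l + l) := by
  obtain ⟨x1, s1, x2, s2, rfl⟩ := h
  have a1 := s1.1 (a, b) (mem_insert_self _ _)
  have a2 := s2.1 (b, c) (mem_insert_self _ _)
  simp only at a1 a2
  have b1 : K * ‖b - a‖ ^ 2 / l ≤ K * 9 / l := by gcongr; nlinarith [norm_nonneg (b - a)]
  have b2 : K * ‖c - b‖ ^ 2 / l ≤ K * 9 / l := by gcongr; nlinarith [norm_nonneg (c - b)]
  have : 0 ≤ ‖x1.1 b - x.1 a‖ ^ 2 / l := by positivity
  have : 0 ≤ ‖x2.1 c - x1.1 b‖ ^ 2 / l := by positivity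
  linarith

omit [InnerProductSpace ℝ F] [DecidableEq F] in
lemma exists_sep_const (Y : Finset F) : ∃ s : ℝ, 0 < s ∧ ∀ q ∈ Y, ∀ q' ∈ Y, q ≠ q' → s ≤ ‖q - q'‖ := by
  classical
  rcases Y.offDiag.eq_empty_or_nonempty with h | h
  · refine ⟨1, one_pos, fun q hq q' hq' hne => ?_⟩
    have : (q, q') ∈ Y.offDiag := mem_offDiag.2 ⟨hq, hq', hne⟩
    simp [h] at this
  · obtain ⟨⟨a, b⟩, hab, hm⟩ := exists_min_image _ (fun z : F × F => ‖z.1 - z.2‖) h
    exact ⟨‖a - b‖, norm_pos_iff.2 (sub_ne_zero.2 (mem_offDiag.1 hab).2.2),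
      fun q hq q' hq' hne => hm (q, q') (mem_offDiag.2 ⟨hq, hq', hne⟩)⟩

lemma close_of {q : F} {S : List (Ph F)} {Y Y' Z : Finset F} {x x' : St F G} {B : ℝ}
    (h : Ok Λ δ β S Y Y') (hs : Stat S Z) (hq : q ∈ Z) (hr : Rel K D S x x') (hκ : 0 ≤ κ)
    (hB : x.2 q - x'.2 q + dur S ≤ B) (hd : dur S * B ≤ κ ^ 2) : ‖x'.1 q - x.1 q‖ ≤ κ := by
  have := (hr.static h hs hq).2
  refine le_trans (le_abs_self _) (abs_le_of_sq_le_sq ?_ hκ)
  exact this.trans ((mul_le_mul_of_nonneg_left hB h.dur_nonneg).trans hd)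

theorem exists_sched {es : F} (hes : ‖es‖ = 1) (hβ : 0 ≤ β) (hΛ : 0 < Λ) (hK : 0 ≤ K)
    (hκ : 0 < κ) : ∀ (T : Tr F) (Y : Finset F), TG (Good es δ β) T Y → 0 ∈ Y →
    ∀ B l0 : ℝ, 0 ≤ B → 0 < l0 → l0 ≤ 1 → ∃ S : List (Ph F), Ok Λ δ β S Y Y ∧ Stat S Y ∧ dur S ≤ l0 ∧
      ∀ x x' : St F G, Rel K D S x x' → BiLip D Y x.1 → (∀ q ∈ Y, x.2 q - x'.2 q ≤ B) →
        Surv D κ T Y x.1
  | .leaf, Y, _, _, B, l0, _, hl, _ =>
    ⟨[], rfl, by simp [Stat], by simpa using hl.le, fun _ _ _ h _ => h⟩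
  | .both T1 T2, Y, hT, h0, B, l0, hB, hl, hl1 => by
    obtain ⟨S1, o1, s1, d1, r1⟩ := exists_sched hes hβ hΛ hK hκ T1 Y hT.1 h0 (B + 1)
      (min (l0 / 2) (κ ^ 2 / (B + 2))) (by linarith) (by positivity)
      ((min_le_left _ _).trans (by linarith))
    obtain ⟨S2, o2, s2, d2, r2⟩ := exists_sched hes hβ hΛ hK hκ T2 Y hT.2 h0 (B + 1) (l0 / 2)
      (by linarith) (by positivity) (by linarith)
    have d1a := d1.trans (min_le_left _ _)
    have d1b := d1.trans (min_le_right _ _)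
    rw [le_div_iff₀ (by positivity)] at d1b
    refine ⟨S1 ++ S2, o1.append o2, fun ph hph => ?_, by rw [dur_append]; linarith, ?_⟩
    · rcases List.mem_append.1 hph with h | h
      exacts [s1 ph h, s2 ph h]
    · intro x x' hr hb hq
      obtain ⟨x1, hr1, hr2⟩ := rel_append hr
      have b1 : ∀ q ∈ Y, x.2 q - x1.2 q ≤ B + l0 / 2 := fun q h => by
        linarith [(hr2.static o2 s2 h).1, hq q h]
      have b2 : ∀ q ∈ Y, x1.2 q - x'.2 q ≤ B + 1 := fun q h => by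
        linarith [(hr1.static o1 s1 h).1, hq q h]
      refine ⟨hb, ⟨x.1, fun q _ => by simpa using hκ.le,
        r1 x x1 hr1 hb fun q h => by linarith [b1 q h]⟩, x1.1, fun q h => ?_,
        r2 x1 x' hr2 (hr1.biLip o1 hb) b2⟩
      exact close_of o1 s1 h hr1 hκ.le (by linarith [b1 q h]) d1b
  | .add p T, Y, hT, h0, B, l0, hB, hl, hl1 => by
    have hg : Good es δ β (insert p Y) := TG.good Good.mono T _ hT
    have hgY : Good es δ β Y := hg.mono _ _ (subset_insert _ _)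
    obtain ⟨s, hs, hsep⟩ := exists_sep_const Y
    obtain ⟨l, hl0, la, lb, lc, ld⟩ : ∃ l : ℝ, 0 < l ∧ l ≤ l0 / 5 ∧ Λ * l ≤ 1 ∧ Λ * l ≤ s ∧
        2 * l * (B + 1) ≤ κ ^ 2 := by
      refine ⟨min (min (l0 / 5) (1 / Λ)) (min (s / Λ) (κ ^ 2 / (2 * (B + 1)))), by positivity,
        (min_le_left _ _).trans (min_le_left _ _), ?_, ?_, ?_⟩
      · rw [mul_comm, ← le_div_iff₀ hΛ]; exact (min_le_left _ _).trans (min_le_right _ _)
      · rw [mul_comm, ← le_div_iff₀ hΛ]; exact (min_le_right _ _).trans (min_le_left _ _)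
      · have := (min_le_right (min (l0 / 5) (1 / Λ)) _).trans
          (min_le_right (s / Λ) (κ ^ 2 / (2 * (B + 1))))
        rw [le_div_iff₀ (by positivity)] at this
        linarith
    obtain ⟨S, o, st, d, r⟩ := exists_sched hes hβ hΛ hK hκ T (insert p Y) hT
      (mem_insert_of_mem h0) (B + 4 * (K * 9 / l + l)) (l0 / 5) (by positivity) (by positivity)
      (by linarith)
    obtain ⟨hp0, hp2⟩ := hg.2 p (mem_insert_self _ _)
    have hm : ⟪es, p + es⟫ = 1 := by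
      rw [inner_add_right, hp0, real_inner_self_eq_norm_sq, hes]; ring
    have hmn : ‖p + es‖ ≤ 3 := by linarith [norm_add_le p es]
    have mk : ∀ a b : F, ‖a‖ ≤ 3 → ‖b‖ ≤ 3 → (⟪es, a⟫ = 0 ∧ ⟪es, b⟫ = 1) ∨
        (⟪es, a⟫ = 1 ∧ ⟪es, b⟫ = 0) → PhOk Λ δ β (l, mv Y a b) := fun a b =>
      phOk_mv hes hgY hβ hΛ.le hl0 lb fun q hq q' hq' h => lc.trans (hsep q hq q' hq' h)
    have oA : Ok Λ δ β [(l, mv Y 0 (p + es)), (l, mv Y (p + es) p)] Y (insert p Y) :=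
      ⟨mk _ _ (by simp) hmn (Or.inl ⟨by simp, hm⟩), by rw [mv_fst, insert_eq_of_mem h0],
        mk _ _ hmn (by linarith) (Or.inr ⟨hm, hp0⟩), by rw [mv_fst, mv_snd], mv_snd _ _ _⟩
    have oC : Ok Λ δ β [(l, mv Y p (p + es)), (l, mv Y (p + es) 0)] (insert p Y) Y :=
      ⟨mk _ _ (by linarith) hmn (Or.inl ⟨hp0, hm⟩), mv_fst _ _ _,
        mk _ _ hmn (by simp) (Or.inr ⟨hm, by simp⟩), by rw [mv_fst, mv_snd],
        by rw [mv_snd, insert_eq_of_mem h0]; rfl⟩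
    have sm : ∀ a b c : F, Stat [(l, mv Y a b), (l, mv Y b c)] Y := by
      intro a b c ph hph q hq
      simp only [List.mem_cons, List.not_mem_nil, or_false] at hph
      rcases hph with rfl | rfl <;> exact mem_insert_of_mem (mem_image_of_mem _ hq)
    refine ⟨_ ++ (S ++ _), oA.append (o.append oC), fun ph hph => ?_, ?_, ?_⟩
    · rcases List.mem_append.1 hph with h | h
      · exact sm _ _ _ ph h
      · rcases List.mem_append.1 h with h | h
        · exact fun q hq => st ph h q (mem_insert_of_mem hq)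
        · exact sm _ _ _ ph h
    · simp only [dur_append, dur_cons, dur_nil]; linarith
    · intro x x' hr hb hq
      obtain ⟨x2, hr1, hr2⟩ := rel_append hr
      obtain ⟨x3, hr2, hr3⟩ := rel_append hr2
      have hKl : 0 ≤ K * 9 / l := by positivity
      refine ⟨hb, x2.1, fun q h => ?_, r x2 x3 hr2 (hr1.biLip oA hb) fun q h => ?_⟩
      · refine close_of (B := B + 1) oA (sm _ _ _) h hr1 hκ.le ?_ ?_
        · have a1 := (hr2.static o st (mem_insert_of_mem h)).1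
          have a2 := (hr3.static oC (sm _ _ _) h).1
          simp only [dur_cons, dur_nil] at a2 ⊢
          linarith [hq q h]
        · simp only [dur_cons, dur_nil]; linarith
      · rcases mem_insert.1 h with rfl | h
        · have a1 := rel_mv hK hl0 (by simpa using hmn) (by simp [hes]) hr1
          have a2 := rel_mv hK hl0 (by simp [hes]) (by rwa [zero_sub, norm_neg]) hr3
          linarith [hq 0 h0]
        · have a1 := (hr1.static oA (sm _ _ _) h).1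
          have a2 := (hr3.static oC (sm _ _ _) h).1
          simp only [dur_cons, dur_nil] at a1 a2
          linarith [hq q h]

omit [DecidableEq F] in
lemma exists_slope : ∀ {S : List (Ph F)}, (∀ ph ∈ S, PhOk Λ δ β ph) →
    ∃ m : ℝ, 0 < m ∧ ∀ ph ∈ S, ∀ e ∈ ph.2, ‖e.2 - e.1‖ ≤ m * ph.1
  | [], _ => ⟨1, one_pos, by simp⟩
  | ph :: S, h => by
    obtain ⟨m, hm, h1⟩ := exists_slope (S := S) fun p hp => h p (List.mem_cons_of_mem _ hp)
    refine ⟨max m (6 / ph.1), lt_max_of_lt_left hm, fun p hp e he => ?_⟩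
    have hp0 := (h p hp).pos
    rcases List.mem_cons.1 hp with rfl | hp
    · have := (h p hp).bd e he
      have h2 := mul_le_mul_of_nonneg_right (le_max_right m (6 / p.1)) hp0.le
      rw [div_mul_cancel₀ _ hp0.ne'] at h2
      linarith [norm_sub_le e.2 e.1]
    · exact (h1 p hp e he).trans (mul_le_mul_of_nonneg_right (le_max_left _ _) hp0.le)

end Crest.Agent.R254
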