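import Crest.Agent.R254.Inner

/-! Row 254: one generation of the inner game, and the winning tree. -/

set_option autoImplicit false

namespace Crest.Agent.R254

open Finset
open scoped RealInnerProductSpace

variable {F G : Type} [NormedAddCommGroup F] [InnerProductSpace ℝ F] [DecidableEq F]
  [NormedAddCommGroup G] [InnerProductSpace ℝ G]

namespace Par

variable {p : Par F G}

/-- times of the test points -/
noncomputable def tm (p : Par F G) (j : ℕ) : ℝ := 1 / 2 + j * (p.l / p.n)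

omit [DecidableEq F] [InnerProductSpace ℝ G] in
lemma tm_bounds {j : ℕ} (hj : j ≤ p.n) : 1 / 2 ≤ p.tm j ∧ p.tm j ≤ 1 / 2 + p.l := by
  have hn : (0 : ℝ) < p.n := by exact_mod_cast p.hn
  have hl := p.hl0
  have hj' : (j : ℝ) ≤ p.n := by exact_mod_cast hj
  unfold tm
  refine ⟨by have : (0 : ℝ) ≤ j * (p.l / p.n) := by positivity
             linarith, ?_⟩
  have : (j : ℝ) * (p.l / p.n) ≤ p.n * (p.l / p.n) := by gcongr
  rw [mul_div_cancel₀ _ hn.ne'] at this
  linarith

omit [DecidableEq F] [InnerProductSpace ℝ G] in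
lemma tm_lt {i j : ℕ} (h : i < j) : p.tm i + p.l / p.n ≤ p.tm j := by
  have hn : (0 : ℝ) < p.n := by exact_mod_cast p.hn
  have hl := p.hl0
  have : (i : ℝ) + 1 ≤ j := by exact_mod_cast h
  unfold tm
  have := mul_le_mul_of_nonneg_right this (show 0 ≤ p.l / p.n by positivity)
  linarith

set_option maxHeartbeats 2000000 in
lemma cl_succ {N : ℕ} (hc : p.Cl' N) : p.Cl (N + 1) := by
  intro Y a R S σ h H
  have hS := h.normS
  have hδ := p.hδ0
  have hδ1 := p.hδ1
  have hR := h.hR
  have hη := p.hη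
  have hM := p.hM
  have hl0 := p.hl0
  have hl1 := p.hl1
  have hn : (0 : ℝ) < p.n := by exact_mod_cast p.hn
  have hln : 0 < p.l / p.n := by positivity
  obtain ⟨y, hy, hsep⟩ := p.sep S
  set w := p.e + S with hw
  set b := a + R • w with hb
  -- general points
  set pt : ℝ → ℝ → Fin p.n → F := fun v c i => a + R • (v • w + p.η • c • y i) with hpt
  have hwy : ∀ i, ⟪w, y i⟫ = 0 := by
    intro i; rw [hw, inner_add_left, (hy i).1, (hy i).2.2.1, add_zero]
  have hwn : ‖w‖ ≤ 5 / 4 := by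
    have := norm_add_le p.e S
    rw [p.he] at this; linarith
  have hesw : ⟪p.es, w⟫ = 0 := by rw [hw, inner_add_right, p.hes, h.hS', add_zero]
  have hflat : ∀ v c i, ⟪p.es, pt v c i⟫ = 0 := by
    intro v c i
    simp only [hpt, inner_add_right, inner_smul_right, hesw, (hy i).2.1, h.ha]; ring
  have hnear : ∀ v c i, 0 ≤ v → v ≤ 1 → 0 ≤ c → c ≤ 1 → ‖pt v c i - a‖ ≤ 3 / 2 * R := by
    intro v c i v0 v1 c0 c1
    simp only [hpt, add_sub_cancel_left]
    rw [norm_smul, Real.norm_of_nonneg hR.le]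
    have h1 := norm_add_le (v • w) (p.η • c • y i)
    rw [norm_smul, norm_smul, norm_smul, Real.norm_of_nonneg v0, Real.norm_of_nonneg hη.le,
      Real.norm_of_nonneg c0] at h1
    have h2 : v * ‖w‖ ≤ 5 / 4 := by nlinarith [norm_nonneg w]
    have h3 : c * ‖y i‖ ≤ p.M := by nlinarith [norm_nonneg (y i), (hy i).2.2.2]
    have h4 := mul_le_mul_of_nonneg_left h3 hη.le
    have := p.hηM
    nlinarith
  have hfar : ∀ v v' c i k, i ≠ k → 0 ≤ c → c ≤ 1 → p.η * R / 2 ≤ ‖pt v' 1 k - pt v c i‖ := by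
    intro v v' c i k hik c0 c1
    have e1 : pt v' 1 k - pt v c i = (R * (v' - v)) • w + (R * p.η) • (y k - c • y i) := by
      simp only [hpt]; module
    rw [e1]
    refine le_trans ?_ (norm_le_norm_add_of_orth (by
      simp only [inner_smul_left, inner_smul_right, inner_sub_right, hwy]; simp))
    rw [norm_smul, Real.norm_of_nonneg (by positivity)]
    have := mul_le_mul_of_nonneg_left (hsep i k hik c c0 c1) (show 0 ≤ R * p.η by positivity)
    linarith
  set P : Fin p.n → F := fun i => pt (p.tm i) 1 i with hP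
  set Gs := univ.image P with hGs
  have htm : ∀ i : Fin p.n, 1 / 2 ≤ p.tm i ∧ p.tm i ≤ 1 / 2 + p.l := fun i => tm_bounds i.2.le
  have hGl : ∀ Z : Set F, Z ⊆ Gs → LineLike p.δ Z := by
    intro Z hZ
    have key : ∀ i k : Fin p.n, i < k → Cone p.e p.δ (P k - P i) := by
      intro i k hik
      have e1 : P k - P i = (R * (p.tm k - p.tm i)) • (p.e + S) + (R * p.η) • (y k - y i) := by
        simp only [hP, hpt, ← hw]; module
      rw [e1]
      have h1 := tm_lt (p := p) (show (i : ℕ) < k from hik)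
      refine cone_of p.he h.hS (by
        rw [inner_smul_right, inner_sub_right, (hy i).1, (hy k).1]; ring) ?_
      rw [abs_of_nonneg (mul_nonneg hR.le (by linarith)), norm_smul,
        Real.norm_of_nonneg (by positivity)]
      have h2 : ‖y k - y i‖ ≤ 2 * p.M := by
        linarith [norm_sub_le (y k) (y i), (hy i).2.2.2, (hy k).2.2.2]
      have h3 := p.hΔ
      have h4 : p.η * ‖y k - y i‖ ≤ p.δ / 2 * (p.tm k - p.tm i) := by
        nlinarith [mul_le_mul_of_nonneg_left h2 hη.le]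
      have h5 : (p.tm k - p.tm i) * ‖S‖ ≤ p.δ / 2 * (p.tm k - p.tm i) := by nlinarith
      nlinarith
    refine lineLike_of_cone p.he fun q hq q' hq' => ?_
    obtain ⟨i, -, rfl⟩ := mem_image.1 (hZ hq)
    obtain ⟨k, -, rfl⟩ := mem_image.1 (hZ hq')
    rcases lt_trichotomy i k with hik | rfl | hik
    · simpa using (key i k hik).neg
    · simp [Cone]
    · exact key k i hik
  have hβ := p.hβ0
  have hexc : ∀ (i : Fin p.n) (X : Finset F) v c R', 0 ≤ v → v ≤ 1 → 0 ≤ c → c ≤ 1 → 0 ≤ R' →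
      R' ≤ R → Exc p.es p.δ p.β (pt v c i) (R' / p.L) X →
      Exc p.es p.δ p.β a R (Gs.erase (P i) ∪ X) := by
    intro i X v c R' v0 v1 c0 c1 R0 R1 hX
    have hL4 : (4 : ℝ) ≤ p.L := by exact_mod_cast p.hL4
    have hRL : R' / p.L ≤ R / 4 := by gcongr
    refine ⟨fun x hx => ?_, ?_⟩
    · rcases mem_union.1 hx with hx | hx
      · obtain ⟨k, -, rfl⟩ := mem_image.1 (mem_of_mem_erase hx)
        have := htm k
        exact ⟨hflat _ _ _, (hnear _ _ _ (by linarith) (by linarith) zero_le_one le_rfl).trans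
          (by linarith)⟩
      · refine ⟨(hX.1 x hx).1, ?_⟩
        have := norm_sub_le_norm_sub_add_norm_sub x (pt v c i) a
        have := hnear v c i v0 v1 c0 c1
        have := (hX.1 x hx).2
        linarith
    · rw [coe_union]
      refine tame_far (hGl _ (by exact_mod_cast erase_subset _ _)) hX.2 hβ.le
        (fun x hx => (hX.1 x hx).2) ?_
      intro q hq
      obtain ⟨hne, hq⟩ := mem_erase.1 (mem_coe.1 hq)
      obtain ⟨k, -, rfl⟩ := mem_image.1 hq
      have hik : i ≠ k := by rintro rfl; exact hne rfl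
      have h1 := mul_le_mul_of_nonneg_left (hfar v (p.tm k) c i k hik c0 c1) hβ.le
      have h2 : R' / p.L ≤ p.β * p.η * R / 8 := by
        rw [div_le_iff₀ (by linarith)]
        nlinarith [p.hL]
      have h3 : p.β * (R' / p.L) ≤ R' / p.L :=
        mul_le_of_le_one_left (by positivity) p.hβ1
      change _ ≤ p.β * ‖pt (p.tm k) 1 k - _‖
      linarith
  have hSδ : ‖S‖ ≤ p.δ := by linarith
  have hchain0 := chain_pair p.he p.hes h.hS h.hS' h.ha hSδ hR.le
  set τ := (σ + p.g * p.η ^ 2) * R ^ 2 with hτ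
  set ψ : (F → G) → Fin p.n → G := fun φ i => φ (P i) - φ a - p.tm i • (φ b - φ a) with hψ
  refine win_addset (A' := p.A a R S σ) Gs Y ?_ (fun φ φ' hφ he => by
    unfold A at hφ ⊢
    rw [he _ h.ma, he _ h.mb]; exact hφ)
  have hgood1 : Good p.es p.δ p.β (Y ∪ Gs) := by
    have i0 : Fin p.n := ⟨0, p.hn⟩
    have hx := hexc i0 {P i0} (p.tm i0) 1 R (by linarith [htm i0]) (by linarith [htm i0])
      zero_le_one le_rfl hR.le le_rfl ⟨by
        intro x hx
        rw [mem_singleton.1 hx]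
        refine ⟨hflat _ _ _, ?_⟩
        have : (0 : ℝ) ≤ R / p.L := by positivity
        simp only [hP, sub_self, norm_zero]; linarith, by
        rw [coe_singleton]; exact (tame_singleton hβ.le _).mono_k (by norm_num)⟩
    refine Good.mono _ _ (H _ _ hchain0 hx) ?_
    intro x hx
    by_cases hxi : x = P i0 <;> simp only [mem_union, mem_erase, mem_singleton] at hx ⊢ <;> tauto
  refine win_step hgood1 ((univ ×ˢ range (p.n + 1)).filter fun ij : Fin p.n × ℕ => (ij.1 : ℕ) < ij.2)
    (fun ij => {pt (p.tm ij.2) 1 ij.1})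
    (fun ij φ => p.A a R S σ φ ∧ (p.g * p.η ^ 2 * R ^ 2 < ‖ψ φ ij.1‖ ^ 2 ∨
      ∃ j : Fin p.n, ij.2 = j ∧ ‖ψ φ ij.1 - ψ φ j‖ ≤ p.η * R / 4)) ?_ ?_
  swap
  · intro φ hφ _
    have hinv : ∀ φ' : F → G, (∀ q ∈ Y ∪ Gs, φ' q = φ q) → p.A a R S σ φ' ∧ ψ φ' = ψ φ := by
      intro φ' he
      have ea := he _ (mem_union_left _ h.ma)
      have eb : φ' b = φ b := he _ (mem_union_left _ h.mb)
      refine ⟨by unfold A at hφ ⊢; rw [ea]; exact eb ▸ hφ, funext fun i => ?_⟩
      simp only [hψ]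
      rw [ea, eb, he _ (mem_union_right _ (mem_image_of_mem P (mem_univ i)))]
    by_cases hbig : ∃ i, p.g * p.η ^ 2 * R ^ 2 < ‖ψ φ i‖ ^ 2
    · obtain ⟨i, hi⟩ := hbig
      refine ⟨(i, p.n), by simp, fun φ' he => ⟨(hinv φ' he).1, Or.inl ?_⟩⟩
      rw [(hinv φ' he).2]; exact hi
    · push Not at hbig
      have hηR : 0 < p.η * R := by positivity
      obtain ⟨i, j, hij, hd⟩ := p.pig (fun i => (p.η * R)⁻¹ • ψ φ i) (fun i => by
        rw [norm_smul, norm_inv, Real.norm_of_nonneg hηR.le, mul_pow, inv_pow,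
          inv_mul_le_iff₀ (by positivity)]
        linarith [hbig i])
      rw [← smul_sub, norm_smul, norm_inv, Real.norm_of_nonneg hηR.le, inv_mul_le_iff₀ hηR] at hd
      refine ⟨(i, j), by simp [hij], fun φ' he => ⟨(hinv φ' he).1, Or.inr ⟨j, rfl, ?_⟩⟩⟩
      rw [(hinv φ' he).2]; linarith
  rintro ⟨i, j⟩ hij
  simp only [mem_filter, mem_product, mem_univ, mem_range, true_and] at hij
  obtain ⟨hj, hij⟩ := hij
  have ti := htm i
  have tj := tm_bounds (p := p) (Nat.lt_succ_iff.1 hj)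
  have tij := tm_lt (p := p) hij
  set s1 := p.tm i
  set s2 := p.tm j
  set Q := pt s2 1 i with hQ
  have hPi : P i = pt s1 1 i := rfl
  set Y2 := Y ∪ Gs ∪ {Q} with hY2
  have mP : ∀ k, P k ∈ Y2 := fun k =>
    mem_union_left _ (mem_union_right _ (mem_image_of_mem P (mem_univ k)))
  have mQ : Q ∈ Y2 := mem_union_right _ (mem_singleton_self _)
  have ma : a ∈ Y2 := mem_union_left _ (mem_union_left _ h.ma)
  have mb : b ∈ Y2 := mem_union_left _ (mem_union_left _ h.mb)
  have hs1 : s1 ≠ 0 := by linarith [ti.1] |> fun h : 0 < s1 => h.ne'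
  have hs3 : 1 - s2 ≠ 0 := by linarith [tj.2] |> fun h : 0 < 1 - s2 => h.ne'
  -- the three segments
  have e1 : a + (R * s1) • (p.e + (S + (p.η / s1) • y i)) = P i := by
    simp only [hPi, hpt, hw, smul_add, smul_smul]
    rw [show R * s1 * (p.η / s1) = R * (p.η * 1) by field_simp]; abel
  have e2 : P i + (R * (s2 - s1)) • (p.e + S) = Q := by
    simp only [hPi, hQ, hpt, ← hw]; module
  have e3 : Q + (R * (1 - s2)) • (p.e + (S + (-(p.η / (1 - s2))) • y i)) = b := by
    have : (R * (1 - s2)) • (-(p.η / (1 - s2))) • y i = -(R * p.η) • y i := by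
      rw [smul_smul]; congr 1; field_simp
    rw [← add_assoc p.e, smul_add (R * (1 - s2)), this]
    simp only [hQ, hpt, hb, ← hw]; module
  have hslope : ∀ c : ℝ, |c| ≤ 4 * p.η → ⟪p.e, S + c • y i⟫ = 0 ∧ ⟪p.es, S + c • y i⟫ = 0 ∧
      ‖S + c • y i‖ ^ 2 + N * (16 * p.η ^ 2 * p.M ^ 2) ≤ p.δ ^ 2 / 4 := by
    intro c hc
    refine ⟨by rw [inner_add_right, inner_smul_right, h.hS, (hy i).1]; ring,
      by rw [inner_add_right, inner_smul_right, h.hS', (hy i).2.1]; ring, ?_⟩
    have h1 := h.slope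
    rw [norm_add_sq_real, inner_smul_right, (hy i).2.2.1, norm_smul, Real.norm_eq_abs]
    have h2 : |c| * ‖y i‖ ≤ 4 * p.η * p.M :=
      mul_le_mul hc (hy i).2.2.2 (norm_nonneg _) (by positivity)
    have h3 := pow_le_pow_left₀ (by positivity) h2 2
    push_cast at h1
    linarith
  have hpot : 2 * p.D ^ 2 < σ + p.g * p.η ^ 2 + N * (p.g * p.η ^ 2) := by
    have := h.pot; push_cast at this; linarith
  have sl1 := hslope (p.η / s1) (by
    rw [abs_of_nonneg (by have := ti.1; positivity), div_le_iff₀ (by linarith)]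
    linarith [mul_le_mul_of_nonneg_left ti.1 hη.le])
  have sl2 := hslope 0 (by simp; positivity)
  rw [zero_smul, add_zero] at sl2
  have sl3 := hslope (-(p.η / (1 - s2))) (by
    rw [abs_neg, abs_of_nonneg (div_nonneg hη.le (by linarith)), div_le_iff₀ (by linarith)]
    linarith [mul_le_mul_of_nonneg_left (show 1 / 4 ≤ 1 - s2 by linarith) hη.le])
  have ok1 : p.SegOk N Y2 a (R * s1) _ (σ + p.g * p.η ^ 2) :=
    ⟨by have := ti.1; positivity, sl1.1, sl1.2.1, h.ha, ma, e1 ▸ mP i, sl1.2.2, hpot⟩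
  have ok2 : p.SegOk N Y2 (P i) (R * (s2 - s1)) S (σ + p.g * p.η ^ 2) :=
    ⟨mul_pos hR (by linarith), sl2.1, sl2.2.1, hflat _ _ _, mP i, e2 ▸ mQ, sl2.2.2, hpot⟩
  have ok3 : p.SegOk N Y2 Q (R * (1 - s2)) _ (σ + p.g * p.η ^ 2) :=
    ⟨mul_pos hR (by linarith), sl3.1, sl3.2.1, hflat _ _ _, mQ, e3 ▸ mb, sl3.2.2, hpot⟩
  have c1 := chain_pair p.he p.hes ok1.hS ok1.hS' ok1.ha (δ := p.δ) (by linarith [ok1.normS]) ok1.hR.le
  have c2 := chain_pair p.he p.hes ok2.hS ok2.hS' ok2.ha (δ := p.δ) (by linarith [ok2.normS]) ok2.hR.le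
  have c3 := chain_pair p.he p.hes ok3.hS ok3.hS' ok3.ha (δ := p.δ) (by linarith [ok3.normS]) ok3.hR.le
  rw [e1] at c1; rw [e2] at c2; rw [e3] at c3
  have fin : ∀ M M' X : Finset F, Chain p.e p.es p.δ a b M → M' ⊆ M → P i ∈ M → Q ∈ M →
      Exc p.es p.δ p.β a R (Gs.erase (P i) ∪ X) → Good p.es p.δ p.β (Y2 ∪ M' ∪ X) := by
    intro M M' X hM hM' m1 m2 hX
    refine Good.mono _ _ (H _ _ hM hX) ?_
    intro x hx
    have := @hM' x
    by_cases hxi : x = P i <;> by_cases hxq : x = Q <;>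
      simp only [hY2, mem_union, mem_erase, mem_singleton] at hx ⊢ <;> subst_vars <;> tauto
  have w1 := hc _ _ _ _ _ ok1 (by
    intro M X u hM u0 u1 hX
    rw [e1] at hM
    have hu : u / R ≤ s1 := by rw [div_le_iff₀ hR]; linarith
    have e : a + u • (p.e + (S + (p.η / s1) • y i)) = pt (u / R) (u / R / s1) i := by
      simp only [hpt, hw, smul_add, smul_smul]
      rw [show R * (u / R) = u by field_simp,
        show R * (p.η * (u / R / s1)) = u * (p.η / s1) by field_simp]; abel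
    rw [e] at hX
    refine fin _ M X ((hM.concat c2).concat c3) (by intro x hx; simp [hx]) (by simp) (by simp)
      (hexc i X _ _ _ (by positivity) (by linarith) (by have := ti.1; positivity)
        (by rw [div_le_one (by linarith)]; exact hu) ok1.hR.le (mul_le_of_le_one_right hR.le (by linarith)) hX))
  have w2 := hc _ _ _ _ _ ok2 (by
    intro M X u hM u0 u1 hX
    rw [e2] at hM
    have hu : u / R ≤ s2 - s1 := by rw [div_le_iff₀ hR]; linarith
    have hu0 : 0 ≤ u / R := by positivity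
    have e : P i + u • (p.e + S) = pt (s1 + u / R) 1 i := by
      have : u • w = R • (u / R) • w := by rw [smul_smul]; congr 1; field_simp
      simp only [hPi, hpt, ← hw]; rw [this]; module
    rw [e] at hX
    refine fin _ M X ((c1.concat hM).concat c3) (by intro x hx; simp [hx]) (by simp) (by simp)
      (hexc i X _ _ _ (by linarith) (by linarith) zero_le_one le_rfl ok2.hR.le
        (mul_le_of_le_one_right hR.le (by linarith)) hX))
  have w3 := hc _ _ _ _ _ ok3 (by
    intro M X u hM u0 u1 hX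
    rw [e3] at hM
    have hu : u / R ≤ 1 - s2 := by rw [div_le_iff₀ hR]; linarith
    have hu0 : 0 ≤ u / R := by positivity
    have e : Q + u • (p.e + (S + (-(p.η / (1 - s2))) • y i)) =
        pt (s2 + u / R) (1 - u / R / (1 - s2)) i := by
      have h1 : u • w = R • (u / R) • w := by rw [smul_smul]; congr 1; field_simp
      have h2 : u • (-(p.η / (1 - s2))) • y i = -(R * p.η * (u / R / (1 - s2))) • y i := by
        rw [smul_smul]; congr 1; field_simp
      rw [← add_assoc p.e, smul_add u, h2]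
      simp only [hQ, hpt, ← hw]; rw [h1]; module
    rw [e] at hX
    have hq : u / R / (1 - s2) ≤ 1 := by rw [div_le_one (by linarith)]; exact hu
    have hq0 : 0 ≤ u / R / (1 - s2) := div_nonneg hu0 (by linarith)
    refine fin _ M X ((c1.concat c2).concat hM) (by intro x hx; simp [hx]) (by simp) (by simp)
      (hexc i X _ _ _ (by linarith) (by linarith) (by linarith) (by linarith) ok3.hR.le
        (mul_le_of_le_one_right hR.le (by linarith)) hX))
  refine ((w1.or w2).or w3).mono ?_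
  rintro φ ⟨hφ, hcase⟩ hbl
  by_contra hne
  simp only [A, e1, e2, e3, not_or, not_le] at hne
  obtain ⟨⟨n1, n2⟩, n3⟩ := hne
  obtain ⟨t1, t2⟩ := three (φ (P i) - φ a) (φ Q - φ (P i)) (φ b - φ Q) (u1 := s1) (u2 := s2 - s1)
    (u3 := 1 - s2) (τ := τ) (by linarith) (by linarith) (by linarith) (by ring)
    (by rw [hτ, mul_assoc, ← mul_pow]; exact n1.le) (by rw [hτ, mul_assoc, ← mul_pow]; exact n2.le)
    (by rw [hτ, mul_assoc, ← mul_pow]; exact n3.le)
  have eW : φ (P i) - φ a + (φ Q - φ (P i)) + (φ b - φ Q) = φ b - φ a := by abel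
  rw [eW] at t1 t2
  have hgap : τ - ‖φ b - φ a‖ ^ 2 ≤ p.g * p.η ^ 2 * R ^ 2 := by
    unfold A at hφ
    rw [hτ]; linarith
  have hpos : 0 < p.g * p.η ^ 2 * R ^ 2 := by have := p.hg; positivity
  rcases hcase with hcase | ⟨j', hj', hcase⟩
  · change _ < ‖φ (P i) - φ a - s1 • (φ b - φ a)‖ ^ 2 at hcase
    have := (mul_le_mul_of_nonneg_left hgap (show 0 ≤ s1 by linarith)).trans
        (mul_le_of_le_one_left hpos.le (by linarith))
    linarith
  · simp only at hj' hcase
    have hne : j' ≠ i := by rintro rfl; omega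
    have hs2 : s2 = p.tm j' := by rw [← hj']
    have d1 : p.η * R / 2 ≤ ‖φ Q - φ (P j')‖ :=
      (hfar (p.tm j') s2 1 j' i hne zero_le_one le_rfl).trans (hbl _ mQ _ (mP j')).1
    have e : φ Q - φ (P j') = (φ Q - φ (P i) - (s2 - s1) • (φ b - φ a)) + (ψ φ i - ψ φ j') := by
      simp only [hψ, ← hs2]; module
    have d2 := norm_add_le (φ Q - φ (P i) - (s2 - s1) • (φ b - φ a)) (ψ φ i - ψ φ j')
    rw [← e] at d2
    have d3 : p.η * R / 4 ≤ ‖φ Q - φ (P i) - (s2 - s1) • (φ b - φ a)‖ := by linarith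
    have d4 := pow_le_pow_left₀ (by positivity) d3 2
    have d5 : (s2 - s1) * (τ - ‖φ b - φ a‖ ^ 2) ≤ p.l * (p.g * p.η ^ 2 * R ^ 2) :=
      (mul_le_mul_of_nonneg_left hgap (by linarith)).trans
        (mul_le_mul_of_nonneg_right (by linarith) hpos.le)
    have d6 := mul_le_mul_of_nonneg_right p.hgl (show 0 ≤ p.η ^ 2 * R ^ 2 by positivity)
    have : 0 < p.η ^ 2 * R ^ 2 := by positivity
    linarith

lemma cl_all (N : ℕ) : p.Cl N := by
  induction N with
  | zero => exact cl_zero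
  | succ N ih => exact cl_succ (cl'_of_cl ih)

lemma exists_tree (p : Par F G) (N : ℕ) (h1 : N * (16 * p.η ^ 2 * p.M ^ 2) ≤ p.δ ^ 2 / 4)
    (h2 : 2 * p.D ^ 2 < N * (p.g * p.η ^ 2)) :
    ∃ T : Tr F, TG (Good p.es p.δ p.β) T {0} ∧ ∀ φ : F → G, ¬ Surv p.D 0 T {0} φ := by
  have hw := cl_all (p := p) N ({0} ∪ {p.e}) 0 1 0 0
    ⟨one_pos, by simp, by simp, by simp, by simp, by simp, by simpa using h1, by simpa using h2⟩ (by
      intro M X hM hX
      simp only [add_zero, one_smul, zero_add] at hM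
      have e : ({0} ∪ {p.e} ∪ M ∪ X : Finset F) = M ∪ X := by
        ext x
        simp only [mem_union, mem_singleton]
        constructor
        · rintro (((rfl | rfl) | h) | h)
          exacts [Or.inl hM.1, Or.inl hM.2.1, Or.inl h, Or.inr h]
        · tauto
      rw [e]
      refine ⟨?_, fun y hy => ?_⟩
      · rw [coe_union]
        exact ((lineLike_of_cone p.he hM.2.2.2).tame p.hβ0.le).union hX.2
      · rcases mem_union.1 hy with hy | hy
        · refine ⟨(hM.2.2.1 y hy).1, ?_⟩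
          have h3 := (hM.2.2.2 y hy 0 hM.1).norm_le p.he
          obtain ⟨-, h4, h5⟩ := hM.2.2.1 y hy
          rw [real_inner_self_eq_norm_sq, p.he] at h5
          rw [inner_zero_right] at h4
          rw [sub_zero, abs_of_nonneg h4] at h3
          nlinarith [p.hδ1, p.hδ0]
        · simpa using hX.1 y hy)
  obtain ⟨T, t1, t2⟩ := win_addset (A := fun _ => True) {p.e} {0} hw (by
    intro φ φ' _ _; simp [A])
  exact ⟨T, t1, fun φ => t2 φ trivial⟩

end Par

end Crest.Agent.R254
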