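import Mathlib

/-! Row 254: "tame" sets (near boundedly many line-like sets at every scale). -/

set_option autoImplicit false

namespace Crest.Agent.R254

open Finset

section
variable {F : Type*} [NormedAddCommGroup F] [NormedSpace ℝ F]

/-- All differences of points of `P` are nearly parallel to one vector. -/
def LineLike (δ : ℝ) (P : Set F) : Prop :=
  ∃ (u : F) (s : F → ℝ), ∀ p ∈ P, ∀ q ∈ P, ‖p - q - (s p - s q) • u‖ ≤ δ * ‖(s p - s q) • u‖

/-- Every subset of diameter `≤ r` is within `β r` of at most `k` line-like sets. -/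
def Tame (k : ℕ) (δ β : ℝ) (Y : Set F) : Prop :=
  ∀ r : ℝ, 0 ≤ r → ∀ Z : Set F, Z ⊆ Y → (∀ p ∈ Z, ∀ q ∈ Z, ‖p - q‖ ≤ r) →
    ∃ L : List (Set F), L.length ≤ k ∧ (∀ P ∈ L, LineLike δ P) ∧
      ∀ z ∈ Z, ∃ P ∈ L, ∃ p ∈ P, ‖z - p‖ ≤ β * r

variable {δ β : ℝ}

lemma lineLike_singleton (x : F) : LineLike δ ({x} : Set F) :=
  ⟨0, fun _ => 0, by rintro p rfl q rfl; simp⟩

lemma Tame.mono {k : ℕ} {Y Y' : Set F} (h : Tame k δ β Y) (hY : Y' ⊆ Y) : Tame k δ β Y' :=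
  fun r hr Z hZ hd => h r hr Z (hZ.trans hY) hd

lemma Tame.mono_k {k k' : ℕ} {Y : Set F} (h : Tame k δ β Y) (hk : k ≤ k') : Tame k' δ β Y := by
  intro r hr Z hZ hd
  obtain ⟨L, h1, h2, h3⟩ := h r hr Z hZ hd
  exact ⟨L, h1.trans hk, h2, h3⟩

lemma Tame.mono_beta {k : ℕ} {β' : ℝ} {Y : Set F} (h : Tame k δ β Y) (hβ : β ≤ β') :
    Tame k δ β' Y := by
  intro r hr Z hZ hd
  obtain ⟨L, h1, h2, h3⟩ := h r hr Z hZ hd
  refine ⟨L, h1, h2, fun z hz => ?_⟩
  obtain ⟨P, hP, p, hp, h4⟩ := h3 z hz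
  exact ⟨P, hP, p, hp, h4.trans (mul_le_mul_of_nonneg_right hβ hr)⟩

lemma LineLike.tame {P : Set F} (h : LineLike δ P) (hβ : 0 ≤ β) : Tame 1 δ β P := by
  intro r hr Z hZ _
  refine ⟨[P], by simp, by simpa using h, fun z hz => ⟨P, by simp, z, hZ hz, ?_⟩⟩
  simpa using mul_nonneg hβ hr

lemma tame_singleton (hβ : 0 ≤ β) (x : F) : Tame 1 δ β ({x} : Set F) :=
  (lineLike_singleton x).tame hβ

lemma tame_empty (k : ℕ) : Tame k δ β (∅ : Set F) := by
  intro r _ Z hZ _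
  exact ⟨[], by simp, by simp, fun z hz => (hZ hz).elim⟩

lemma Tame.union {k k' : ℕ} {Y Y' : Set F} (h : Tame k δ β Y) (h' : Tame k' δ β Y') :
    Tame (k + k') δ β (Y ∪ Y') := by
  intro r hr Z hZ hd
  obtain ⟨L, h1, h2, h3⟩ := h r hr (Z ∩ Y) Set.inter_subset_right
    (fun p hp q hq => hd p hp.1 q hq.1)
  obtain ⟨L', h1', h2', h3'⟩ := h' r hr (Z ∩ Y') Set.inter_subset_right
    (fun p hp q hq => hd p hp.1 q hq.1)
  refine ⟨L ++ L', by simp; omega, ?_, fun z hz => ?_⟩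
  · intro P hP
    rcases List.mem_append.1 hP with hP | hP
    exacts [h2 P hP, h2' P hP]
  · rcases hZ hz with hy | hy
    · obtain ⟨P, hP, hp⟩ := h3 z ⟨hz, hy⟩
      exact ⟨P, List.mem_append_left _ hP, hp⟩
    · obtain ⟨P, hP, hp⟩ := h3' z ⟨hz, hy⟩
      exact ⟨P, List.mem_append_right _ hP, hp⟩

/-- Replacing well separated points by small tame clusters keeps tameness. -/
lemma tame_cluster {ι : Type*} {k : ℕ} (E : Set ι) (c : ι → F) (Z : ι → Set F) {ρ : ℝ}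
    (hρ : 0 ≤ ρ) (hβ0 : 0 ≤ β) (hβ1 : β ≤ 1)
    (hZ : ∀ i ∈ E, ∀ z ∈ Z i, ‖z - c i‖ ≤ ρ)
    (hsep : ∀ i ∈ E, ∀ j ∈ E, i ≠ j → 4 * ρ ≤ β * ‖c i - c j‖)
    (hT : ∀ i ∈ E, Tame k δ β (Z i)) (hc : Tame k δ (β / 4) (c '' E)) :
    Tame k δ β (⋃ i ∈ E, Z i) := by
  intro r hr W hW hd
  by_cases h1 : ∃ i ∈ E, W ⊆ Z i
  · obtain ⟨i, hi, h⟩ := h1
    exact hT i hi r hr W h hd
  rcases W.eq_empty_or_nonempty with rfl | ⟨w, hw⟩
  · exact ⟨[], by simp, by simp, by simp⟩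
  have hmem : ∀ z ∈ W, ∃ i ∈ E, z ∈ Z i := fun z hz => by simpa using hW hz
  obtain ⟨i, hi, hwi⟩ := hmem w hw
  have : ¬ W ⊆ Z i := fun h => h1 ⟨i, hi, h⟩
  obtain ⟨w', hw', hw'i⟩ := Set.not_subset.1 this
  obtain ⟨j, hj, hwj⟩ := hmem w' hw'
  have hij : i ≠ j := by rintro rfl; exact hw'i hwj
  have tri : ∀ i ∈ E, ∀ j ∈ E, ∀ a ∈ W, ∀ b ∈ W, a ∈ Z i → b ∈ Z j → ‖c i - c j‖ ≤ r + 2 * ρ := by
    intro i hi j hj a ha b hb hai hbj
    have e : c i - c j = (a - b) - (a - c i) + (b - c j) := by abel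
    have := norm_add_le ((a - b) - (a - c i)) (b - c j)
    have := norm_sub_le (a - b) (a - c i)
    have := hZ i hi a hai
    have := hZ j hj b hbj
    have := hd a ha b hb
    rw [e]; linarith
  have hρr : 2 * ρ ≤ β * r := by
    have h2 := hsep i hi j hj hij
    have h3 := mul_le_mul_of_nonneg_left (tri i hi j hj w hw w' hw' hwi hwj) hβ0
    nlinarith
  have hρr' : 2 * ρ ≤ r := hρr.trans (by nlinarith)
  obtain ⟨L, h1, h2, h3⟩ := hc (2 * r) (by linarith) (c '' {i ∈ E | ∃ a ∈ W, a ∈ Z i})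
    (Set.image_mono (Set.sep_subset _ _)) (by
      rintro _ ⟨i, ⟨hi, a, ha, hai⟩, rfl⟩ _ ⟨j, ⟨hj, b, hb, hbj⟩, rfl⟩
      have := tri i hi j hj a ha b hb hai hbj
      linarith)
  refine ⟨L, h1, h2, fun z hz => ?_⟩
  obtain ⟨i, hi, hzi⟩ := hmem z hz
  obtain ⟨P, hP, p, hp, h4⟩ := h3 (c i) ⟨i, ⟨hi, z, hz, hzi⟩, rfl⟩
  refine ⟨P, hP, p, hp, ?_⟩
  have e : z - p = (z - c i) + (c i - p) := by abel
  have := norm_add_le (z - c i) (c i - p)
  have := hZ i hi z hzi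
  rw [e]; linarith

/-- Similarities preserve tameness. -/
lemma Tame.image {F' : Type*} [NormedAddCommGroup F'] [NormedSpace ℝ F'] {k : ℕ} {Y : Set F}
    (h : Tame k δ β Y) (Q : F →ₗᵢ[ℝ] F') (c : F') {a : ℝ} (ha : 0 < a) :
    Tame k δ β ((fun x => c + a • Q x) '' Y) := by
  set g : F → F' := fun x => c + a • Q x with hg
  have hd : ∀ x y, g x - g y = a • Q (x - y) := by
    intro x y; simp only [hg, map_sub, smul_sub]; abel
  have hn : ∀ x y, ‖g x - g y‖ = a * ‖x - y‖ := by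
    intro x y; rw [hd, norm_smul, Q.norm_map, Real.norm_of_nonneg ha.le]
  have hinj : Function.Injective g := by
    intro x y hxy
    have := hn x y
    rw [hxy, sub_self, norm_zero] at this
    have h0 : ‖x - y‖ = 0 := by
      rcases mul_eq_zero.1 this.symm with h | h
      · exact absurd h ha.ne'
      · exact h
    exact sub_eq_zero.1 (norm_eq_zero.1 h0)
  intro r hr Z hZ hdz
  obtain ⟨L, h1, h2, h3⟩ := h (r / a) (div_nonneg hr ha.le) (Y ∩ g ⁻¹' Z) Set.inter_subset_left (by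
    intro p hp q hq
    have := hdz _ hp.2 _ hq.2
    rw [hn] at this
    rw [le_div_iff₀ ha]; linarith)
  refine ⟨L.map (fun P => g '' P), by simpa using h1, ?_, fun z hz => ?_⟩
  · intro P' hP'
    obtain ⟨P, hP, rfl⟩ := List.mem_map.1 hP'
    obtain ⟨u, s, hs⟩ := h2 P hP
    refine ⟨a • Q u, s ∘ Function.invFun g, ?_⟩
    rintro _ ⟨p, hp, rfl⟩ _ ⟨q, hq, rfl⟩
    have hl := Function.leftInverse_invFun hinj
    simp only [Function.comp, hl p, hl q]
    have e1 : g p - g q - (s p - s q) • a • Q u = a • Q (p - q - (s p - s q) • u) := by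
      rw [hd, map_sub Q (p - q), map_smul, smul_sub, smul_comm a (s p - s q)]
    have e2 : (s p - s q) • a • Q u = a • Q ((s p - s q) • u) := by
      rw [map_smul, smul_comm]
    rw [e1, e2, norm_smul, norm_smul, Q.norm_map, Q.norm_map, Real.norm_of_nonneg ha.le]
    have := mul_le_mul_of_nonneg_left (hs p hp q hq) ha.le
    linarith
  · obtain ⟨y, hy, rfl⟩ := hZ hz
    obtain ⟨P, hP, p, hp, h4⟩ := h3 y ⟨hy, hz⟩
    refine ⟨g '' P, List.mem_map.2 ⟨P, hP, rfl⟩, g p, ⟨p, hp, rfl⟩, ?_⟩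
    rw [hn]
    have := mul_le_mul_of_nonneg_left h4 ha.le
    have e : a * (β * (r / a)) = β * r := by field_simp
    linarith

end

/-- Separated reals in a bounded range are few. -/
lemma card_le_of_real {α : Type*} (Z : Finset α) (x : α → ℝ) {ρ : ℝ} (hρ : 0 < ρ) (m : ℕ)
    (hsep : ∀ p ∈ Z, ∀ q ∈ Z, p ≠ q → ρ ≤ |x p - x q|)
    (hd : ∀ p ∈ Z, ∀ q ∈ Z, |x p - x q| ≤ m * ρ) : Z.card ≤ 2 * m + 1 := by
  rcases Z.eq_empty_or_nonempty with rfl | ⟨p0, hp0⟩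
  · simp
  have h := Finset.card_le_card_of_injOn (s := Z) (t := Finset.Icc (-(m : ℤ)) m)
    (fun p => ⌊(x p - x p0) / ρ⌋) (by
      intro p hp
      have := abs_le.1 (hd p hp p0 hp0)
      simp only [coe_Icc, Set.mem_Icc]
      constructor
      · rw [Int.le_floor, le_div_iff₀ hρ]; push_cast; linarith
      · rw [Int.floor_le_iff, div_lt_iff₀ hρ]; push_cast; linarith) (by
      intro p hp q hq hpq
      by_contra hne
      have h1 := hsep p hp q hq hne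
      have h2 := Int.abs_sub_lt_one_of_floor_eq_floor hpq
      rw [← sub_div, abs_div, abs_of_pos hρ, div_lt_one hρ] at h2
      have e : x p - x p0 - (x q - x p0) = x p - x q := by ring
      rw [e] at h2; linarith)
  simp at h
  omega

/-- Counting separated points of a tame set in an equivalent norm. -/
lemma Tame.card_le {F B : Type*} [NormedAddCommGroup F] [NormedSpace ℝ F]
    [NormedAddCommGroup B] [NormedSpace ℝ B] {k : ℕ} {δ β C : ℝ} {Y : Set F}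
    (h : Tame k δ β Y) (T : F →ₗ[ℝ] B) (hT1 : ∀ x, ‖x‖ ≤ ‖T x‖) (hT2 : ∀ x, ‖T x‖ ≤ C * ‖x‖)
    (hC : 0 ≤ C) (hδ0 : 0 ≤ δ) (hδ : C * δ ≤ 1 / 2) (hβ : C * β * 17 ≤ 1 / 4)
    (Z : Finset F) (hZ : ↑Z ⊆ Y) {ρ : ℝ} (hρ : 0 < ρ)
    (hsep : ∀ p ∈ Z, ∀ q ∈ Z, p ≠ q → ρ ≤ ‖T (p - q)‖)
    (hd : ∀ p ∈ Z, ∀ q ∈ Z, ‖T (p - q)‖ ≤ 17 * ρ) : Z.card ≤ k * 211 := by
  classical
  obtain ⟨L, h1, h2, h3⟩ := h (17 * ρ) (by linarith) Z hZ
    (fun p hp q hq => (hT1 _).trans (hd p hp q hq))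
  have key : ∀ P : Set F, LineLike δ P →
      (Z.filter (fun z => ∃ p ∈ P, ‖z - p‖ ≤ β * (17 * ρ))).card ≤ 211 := by
    rintro P ⟨u, s, hs⟩
    set W := Z.filter (fun z => ∃ p ∈ P, ‖z - p‖ ≤ β * (17 * ρ))
    have hW : ∀ z ∈ W, ∃ p ∈ P, ‖z - p‖ ≤ β * (17 * ρ) := fun z hz => (mem_filter.1 hz).2
    choose! π hπ hπd using hW
    have hπT : ∀ z ∈ W, ‖T (z - π z)‖ ≤ ρ / 4 := by
      intro z hz
      have := mul_le_mul_of_nonneg_left (hπd z hz) hC
      have := hT2 (z - π z)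
      nlinarith
    have hcmp : ∀ p ∈ W, ∀ q ∈ W,
        |‖T (p - q)‖ - (|s (π p) * ‖T u‖ - s (π q) * ‖T u‖|)| ≤
          ρ / 2 + |s (π p) * ‖T u‖ - s (π q) * ‖T u‖| / 2 := by
      intro p hp q hq
      have e0 : |s (π p) * ‖T u‖ - s (π q) * ‖T u‖| = ‖T ((s (π p) - s (π q)) • u)‖ := by
        rw [map_smul, norm_smul, ← sub_mul, abs_mul, abs_norm, Real.norm_eq_abs]
      rw [e0]
      set v := (s (π p) - s (π q)) • u
      have h5 := hs _ (hπ p hp) _ (hπ q hq)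
      have h6 : ‖T (π p - π q - v)‖ ≤ ‖T v‖ / 2 := by
        have a1 := hT2 (π p - π q - v)
        have a2 := mul_le_mul_of_nonneg_left h5 hC
        have a3 := mul_le_mul_of_nonneg_left (hT1 v) (mul_nonneg hC hδ0)
        have a4 := mul_le_mul_of_nonneg_right hδ (norm_nonneg (T v))
        change ‖π p - π q - v‖ ≤ δ * ‖v‖ at h5
        nlinarith
      have e : T (p - q) - T v = T (p - π p) - T (q - π q) + T (π p - π q - v) := by
        simp only [map_sub]; abel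
      have h7 := abs_norm_sub_norm_le (T (p - q)) (T v)
      have h8 := norm_add_le (T (p - π p) - T (q - π q)) (T (π p - π q - v))
      have h9 := norm_sub_le (T (p - π p)) (T (q - π q))
      have := hπT p hp
      have := hπT q hq
      rw [e] at h7
      linarith
    have := card_le_of_real W (fun z => s (π z) * ‖T u‖) (ρ := ρ / 3) (by linarith) 105
      (fun p hp q hq hpq => by
        have a1 := abs_le.1 (hcmp p hp q hq)
        have a2 := hsep p (mem_filter.1 hp).1 q (mem_filter.1 hq).1 hpq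
        linarith [a1.2])
      (fun p hp q hq => by
        have a1 := abs_le.1 (hcmp p hp q hq)
        have a2 := hd p (mem_filter.1 hp).1 q (mem_filter.1 hq).1
        push_cast
        linarith [a1.1])
    omega
  have hsub : Z ⊆ L.toFinset.biUnion
      (fun P => Z.filter (fun z => ∃ p ∈ P, ‖z - p‖ ≤ β * (17 * ρ))) := by
    intro z hz
    obtain ⟨P, hP, hp⟩ := h3 z hz
    exact mem_biUnion.2 ⟨P, List.mem_toFinset.2 hP, mem_filter.2 ⟨hz, hp⟩⟩
  refine (card_le_card hsub).trans ((card_biUnion_le_card_mul _ _ 211 ?_).trans ?_)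
  · intro P hP
    exact key P (h2 P (List.mem_toFinset.1 hP))
  · exact Nat.mul_le_mul_right _ ((List.toFinset_card_le L).trans h1)

end Crest.Agent.R254
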